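import Vale.Agent.P267.H439.DivLoc

/-!
# P267, block G, package G-P1 (helper205): one-variable calculus

`db f z = ∂f/∂z̄ (z)` for functions of one complex variable with values in a complex normed space;
the Cauchy transform of a compactly supported smooth function, with bounds and its behaviour at
infinity.
-/

open Filter Topology MeasureTheory Set Metric
open scoped ContDiff Real ComplexConjugate

namespace Vale.Agent.P267.H205.P1

noncomputable section

variable {V : Type*} [NormedAddCommGroup V] [NormedSpace ℂ V]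

/-- `∂f/∂z̄` -/
def db (f : ℂ → V) (z : ℂ) : V :=
  (1 / 2 : ℂ) • (fderiv ℝ f z 1 + Complex.I • fderiv ℝ f z Complex.I)

theorem db_congr {f g : ℂ → V} {z : ℂ} (h : f =ᶠ[𝓝 z] g) : db f z = db g z := by
  unfold db
  rw [h.fderiv_eq]

theorem db_const (c : V) (z : ℂ) : db (fun _ : ℂ => c) z = 0 := by
  simp [db]

theorem db_add {f g : ℂ → V} {z : ℂ} (hf : DifferentiableAt ℝ f z) (hg : DifferentiableAt ℝ g z) :
    db (fun x => f x + g x) z = db f z + db g z := by
  unfold db
  rw [fderiv_fun_add hf hg]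
  simp only [add_apply]
  module

theorem db_sub {f g : ℂ → V} {z : ℂ} (hf : DifferentiableAt ℝ f z) (hg : DifferentiableAt ℝ g z) :
    db (fun x => f x - g x) z = db f z - db g z := by
  unfold db
  rw [fderiv_fun_sub hf hg]
  simp only [sub_apply]
  module

theorem db_neg {f : ℂ → V} {z : ℂ} : db (fun x => - f x) z = - db f z := by
  unfold db
  rw [fderiv_fun_neg]
  simp only [neg_apply]
  module

theorem db_smul {u : ℂ → ℂ} {f : ℂ → V} {z : ℂ} (hu : DifferentiableAt ℝ u z)
    (hf : DifferentiableAt ℝ f z) :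
    db (fun x => u x • f x) z = u z • db f z + db u z • f z := by
  unfold db
  have h := (hu.hasFDerivAt.smul hf.hasFDerivAt).fderiv
  have h' : fderiv ℝ (fun x => u x • f x) z =
    u z • fderiv ℝ f z + (fderiv ℝ u z).smulRight (f z) := h
  rw [h']
  simp only [add_apply, smul_apply, ContinuousLinearMap.smulRight_apply, smul_eq_mul]
  module

theorem db_mul {u f : ℂ → ℂ} {z : ℂ} (hu : DifferentiableAt ℝ u z)
    (hf : DifferentiableAt ℝ f z) :
    db (fun x => u x * f x) z = u z * db f z + db u z * f z := by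
  have := db_smul hu hf
  simpa only [smul_eq_mul] using this

/-- functions with `∂̄f = 0` are holomorphic -/
theorem differentiableAt_of_db {f : ℂ → V} {z : ℂ} (hf : DifferentiableAt ℝ f z)
    (h : db f z = 0) : DifferentiableAt ℂ f z := by
  have h1 : fderiv ℝ f z Complex.I = Complex.I • fderiv ℝ f z 1 := by
    unfold db at h
    rw [smul_eq_zero] at h
    have h2 : fderiv ℝ f z 1 + Complex.I • fderiv ℝ f z Complex.I = 0 := by
      rcases h with h | h
      · norm_num at h
      · exact h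
    have h3 : Complex.I • (fderiv ℝ f z 1 + Complex.I • fderiv ℝ f z Complex.I) = 0 := by
      rw [h2, smul_zero]
    rw [smul_add, smul_smul, Complex.I_mul_I, neg_one_smul, ← sub_eq_add_neg, sub_eq_zero] at h3
    exact h3.symm
  have h2 : ∀ v : ℂ, fderiv ℝ f z v = v • fderiv ℝ f z 1 := by
    intro v
    have : v = v.re • (1 : ℂ) + v.im • Complex.I := by
      simp only [Complex.real_smul, mul_one]
      exact (Complex.re_add_im v).symm
    conv_lhs => rw [this]
    rw [map_add, map_smul, map_smul, h1]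
    conv_rhs => rw [← Complex.re_add_im v, add_smul, mul_smul]
    rfl
  have h3 : HasFDerivAt f ((ContinuousLinearMap.toSpanSingleton ℂ (fderiv ℝ f z 1))) z := by
    rw [hasFDerivAt_iff_isLittleO_nhds_zero]
    have := (hasFDerivAt_iff_isLittleO_nhds_zero.1 hf.hasFDerivAt)
    refine this.congr_left fun v => ?_
    simp only [ContinuousLinearMap.toSpanSingleton_apply]
    rw [h2 v]
  exact h3.differentiableAt

theorem db_of_differentiableAt {f : ℂ → V} {z : ℂ} (hf : DifferentiableAt ℂ f z) : db f z = 0 := by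
  unfold db
  have h1 : fderiv ℝ f z = (fderiv ℂ f z).restrictScalars ℝ :=
    (hf.hasFDerivAt.restrictScalars ℝ).fderiv
  rw [h1]
  simp only [ContinuousLinearMap.coe_restrictScalars']
  have h2 : fderiv ℂ f z Complex.I = Complex.I • fderiv ℂ f z 1 := by
    rw [← map_smul]; simp
  rw [h2, smul_smul, Complex.I_mul_I]
  module

theorem db_clm {W : Type*} [NormedAddCommGroup W] [NormedSpace ℂ W] (A : V →L[ℂ] W)
    {f : ℂ → V} {z : ℂ} (hf : DifferentiableAt ℝ f z) :
    db (fun x => A (f x)) z = A (db f z) := by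
  unfold db
  have h : fderiv ℝ (fun x => A (f x)) z = (A.restrictScalars ℝ).comp (fderiv ℝ f z) :=
    ((A.restrictScalars ℝ).hasFDerivAt.comp z hf.hasFDerivAt).fderiv
  rw [h]
  simp only [ContinuousLinearMap.comp_apply, ContinuousLinearMap.coe_restrictScalars', map_smul,
    map_add]

/-- composition with a holomorphic map -/
theorem db_comp {f : ℂ → V} {g : ℂ → ℂ} {z : ℂ} (hf : DifferentiableAt ℝ f (g z))
    (hg : DifferentiableAt ℂ g z) :
    db (fun x => f (g x)) z = conj (deriv g z) • db f (g z) := by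
  unfold db
  have h : fderiv ℝ (fun x => f (g x)) z =
      (fderiv ℝ f (g z)).comp ((fderiv ℂ g z).restrictScalars ℝ) :=
    (hf.hasFDerivAt.comp z (hg.hasFDerivAt.restrictScalars ℝ)).fderiv
  rw [h]
  simp only [ContinuousLinearMap.comp_apply, ContinuousLinearMap.coe_restrictScalars']
  have h1 : ∀ v : ℂ, fderiv ℂ g z v = v * deriv g z := by
    intro v
    rw [fderiv_eq_smul_deriv, smul_eq_mul]
  have h2 : ∀ v : ℂ, fderiv ℝ f (g z) v =
      v.re • fderiv ℝ f (g z) 1 + v.im • fderiv ℝ f (g z) Complex.I := by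
    intro v
    have : v = v.re • (1 : ℂ) + v.im • Complex.I := by
      simp only [Complex.real_smul, mul_one]
      exact (Complex.re_add_im v).symm
    conv_lhs => rw [this]
    rw [map_add, map_smul, map_smul]
  rw [h1, h1, one_mul, h2 (deriv g z), h2 (Complex.I * deriv g z)]
  set A := fderiv ℝ f (g z) 1
  set B := fderiv ℝ f (g z) Complex.I
  have e1 : (Complex.I * deriv g z).re = - (deriv g z).im := by simp
  have e2 : (Complex.I * deriv g z).im = (deriv g z).re := by simp
  rw [e1, e2]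
  have e3 : conj (deriv g z) = ((deriv g z).re : ℂ) - ((deriv g z).im : ℂ) * Complex.I := by
    apply Complex.ext <;> simp
  rw [e3]
  have e4 : ∀ (r : ℝ) (v : V), r • v = (r : ℂ) • v := fun r v => (Complex.coe_smul r v).symm
  simp only [e4, smul_add, smul_smul]
  push_cast
  have e5 : Complex.I * Complex.I = -1 := Complex.I_mul_I
  match_scalars
  · ring
  · linear_combination ((1/2 : ℂ) * (deriv g z).im) * e5

theorem contDiff_db {f : ℂ → V} (hf : ContDiff ℝ ∞ f) : ContDiff ℝ ∞ (db f) := by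
  unfold db
  have h1 : ContDiff ℝ ∞ (fderiv ℝ f) := hf.fderiv_right (by simp)
  exact contDiff_const.smul ((h1.clm_apply contDiff_const).add
    (contDiff_const.smul (h1.clm_apply contDiff_const)))

theorem db_cexp {u : ℂ → ℂ} {z : ℂ} (hu : DifferentiableAt ℝ u z) :
    db (fun x => Complex.exp (u x)) z = Complex.exp (u z) * db u z := by
  unfold db
  have h : fderiv ℝ (fun x => Complex.exp (u x)) z = Complex.exp (u z) • fderiv ℝ u z :=
    (hu.hasFDerivAt.cexp).fderiv
  rw [h]
  simp only [smul_apply, smul_eq_mul]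
  ring

/-! ### the Cauchy transform -/

/-- Cauchy transform in the plane -/
def cau (g : ℂ → ℂ) (z : ℂ) : ℂ := H439.cau2 (P := ℂ) (fun q => g q.2) (0, z)

theorem cau_eq (g : ℂ → ℂ) (z : ℂ) : cau g z = ∫ t, ((π : ℂ) * (z - t))⁻¹ * g t := by
  unfold cau H439.cau2
  rw [convolution_eq_swap]
  rfl

variable {g : ℂ → ℂ}

theorem exists_ball (hs : HasCompactSupport g) : ∃ R : ℝ, 0 < R ∧ ∀ x, R ≤ ‖x‖ → g x = 0 := by
  obtain ⟨R, hR⟩ := hs.isCompact.isBounded.exists_norm_le
  refine ⟨|R| + 1, by positivity, fun x hx => ?_⟩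
  by_contra h
  have := hR x (subset_tsupport _ h)
  have h2 := le_abs_self R
  linarith

theorem contDiff_cau (hg : ContDiff ℝ ∞ g) (hs : HasCompactSupport g) : ContDiff ℝ ∞ (cau g) := by
  have h := H439.cau2_contDiff (P := ℂ) (g := fun q => g q.2) (hg.comp contDiff_snd)
    hs.isCompact (fun p x hx => image_eq_zero_of_notMem_tsupport hx)
  exact h.comp (contDiff_const.prodMk contDiff_id)

theorem db_cau (hg : ContDiff ℝ ∞ g) (hs : HasCompactSupport g) (z : ℂ) :
    db (cau g) z = g z := by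
  have hsm := H439.cau2_contDiff (P := ℂ) (g := fun q => g q.2) (hg.comp contDiff_snd)
    hs.isCompact (fun p x hx => image_eq_zero_of_notMem_tsupport hx)
  have h := H439.dbv_cau2 (P := ℂ) (g := fun q => g q.2) (hg.comp contDiff_snd)
    hs.isCompact (fun p x hx => image_eq_zero_of_notMem_tsupport hx) (0, z)
  have hd : DifferentiableAt ℝ (H439.cau2 (P := ℂ) fun q => g q.2) (0, z) :=
    (hsm.differentiable (by simp)) _
  have h1 : fderiv ℝ (cau g) z = (fderiv ℝ (H439.cau2 (P := ℂ) fun q => g q.2) (0, z)).comp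
      ((0 : ℂ →L[ℝ] ℂ).prod (ContinuousLinearMap.id ℝ ℂ)) := by
    have h2 : HasFDerivAt (fun z : ℂ => ((0 : ℂ), z))
        ((0 : ℂ →L[ℝ] ℂ).prod (ContinuousLinearMap.id ℝ ℂ)) z :=
      (hasFDerivAt_const _ _).prodMk (hasFDerivAt_id _)
    exact (hd.hasFDerivAt.comp z h2).fderiv
  unfold db
  rw [h1]
  unfold H439.dbv at h
  simp only [ContinuousLinearMap.comp_apply, ContinuousLinearMap.prod_apply, zero_apply,
    ContinuousLinearMap.id_apply, smul_eq_mul]
  have e : Complex.I • ((0 : ℂ), (1 : ℂ)) = (0, Complex.I) := by simp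
  rw [e] at h
  exact h

theorem integrable_kerBall : Integrable (fun t : ℂ => (ball (0 : ℂ) 1).indicator
    (fun s => ‖H439.ker1 s‖) t) := by
  rw [integrable_indicator_iff isOpen_ball.measurableSet]
  have h := H439.locallyIntegrable_ker1.integrableOn_isCompact (isCompact_closedBall (0 : ℂ) 1)
  exact (h.mono_set ball_subset_closedBall).norm

/-- the constant in the sup bound for the Cauchy transform -/
def cauC (R : ℝ) : ℝ := π⁻¹ * volume.real (ball (0 : ℂ) R) +
  ∫ t : ℂ, (ball (0 : ℂ) 1).indicator (fun s => ‖H439.ker1 s‖) t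

theorem cauC_nonneg (R : ℝ) : 0 ≤ cauC R := by
  unfold cauC
  have h1 : 0 ≤ volume.real (ball (0 : ℂ) R) := measureReal_nonneg
  have h2 : 0 ≤ ∫ t : ℂ, (ball (0 : ℂ) 1).indicator (fun s => ‖H439.ker1 s‖) t :=
    integral_nonneg fun t => indicator_nonneg (fun _ _ => norm_nonneg _) _
  have h3 : 0 < π⁻¹ := inv_pos.2 Real.pi_pos
  positivity

theorem cau_eq' (g : ℂ → ℂ) (z : ℂ) : cau g z = ∫ t, H439.ker1 (z - t) * g t := cau_eq g z

/-- sup bound for the Cauchy transform -/
theorem norm_cau_le {R ε : ℝ} (hR : ∀ x, R ≤ ‖x‖ → g x = 0) (hε : ∀ x, ‖g x‖ ≤ ε) (z : ℂ) :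
    ‖cau g z‖ ≤ cauC R * ε := by
  have hε0 : 0 ≤ ε := (norm_nonneg _).trans (hε 0)
  rw [cau_eq']
  have hk1 : Integrable (fun t : ℂ => (ball (0 : ℂ) R).indicator (fun _ => π⁻¹) t) := by
    rw [integrable_indicator_iff isOpen_ball.measurableSet]
    exact integrableOn_const (by exact measure_ball_lt_top.ne)
  have hk2 : Integrable (fun t : ℂ => (ball (0 : ℂ) 1).indicator
      (fun s => ‖H439.ker1 s‖) (z - t)) := integrable_kerBall.comp_sub_left z
  have hb : ∀ t : ℂ, ‖H439.ker1 (z - t) * g t‖ ≤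
      ((ball (0 : ℂ) R).indicator (fun _ => π⁻¹) t +
        (ball (0 : ℂ) 1).indicator (fun s => ‖H439.ker1 s‖) (z - t)) * ε := by
    intro t
    have n1 : 0 ≤ (ball (0 : ℂ) R).indicator (fun _ => π⁻¹) t :=
      indicator_nonneg (fun _ _ => (inv_pos.2 Real.pi_pos).le) _
    have n2 : 0 ≤ (ball (0 : ℂ) 1).indicator (fun s => ‖H439.ker1 s‖) (z - t) :=
      indicator_nonneg (fun _ _ => norm_nonneg _) _
    rw [norm_mul]
    by_cases ht : R ≤ ‖t‖
    · rw [hR t ht, norm_zero, mul_zero]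
      positivity
    · have ht' : t ∈ ball (0 : ℂ) R := by simpa using not_le.1 ht
      by_cases hzt : z - t ∈ ball (0 : ℂ) 1
      · rw [indicator_of_mem hzt]
        have : ‖H439.ker1 (z - t)‖ * ‖g t‖ ≤ ‖H439.ker1 (z - t)‖ * ε :=
          mul_le_mul_of_nonneg_left (hε t) (norm_nonneg _)
        nlinarith [mul_nonneg n1 hε0]
      · rw [indicator_of_mem ht']
        have h1 : 1 ≤ ‖z - t‖ := by simpa using hzt
        have h2 : ‖H439.ker1 (z - t)‖ ≤ π⁻¹ := by
          unfold H439.ker1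
          rw [norm_inv, norm_mul, Complex.norm_real, Real.norm_eq_abs, abs_of_pos Real.pi_pos]
          refine inv_anti₀ Real.pi_pos ?_
          nlinarith [Real.pi_pos]
        have : ‖H439.ker1 (z - t)‖ * ‖g t‖ ≤ π⁻¹ * ε :=
          mul_le_mul h2 (hε t) (norm_nonneg _) (inv_pos.2 Real.pi_pos).le
        nlinarith [mul_nonneg n2 hε0]
  refine (norm_integral_le_of_norm_le ((hk1.add hk2).mul_const ε)
    (Eventually.of_forall hb)).trans (le_of_eq ?_)
  rw [integral_mul_const]
  congr 1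
  rw [Pi.add_def, integral_add hk1 hk2]
  unfold cauC
  congr 1
  · rw [integral_indicator isOpen_ball.measurableSet, setIntegral_const, smul_eq_mul, mul_comm]
  · exact integral_sub_left_eq_self
      (fun t : ℂ => (ball (0 : ℂ) 1).indicator (fun s => ‖H439.ker1 s‖) t) volume z

/-- decay of the Cauchy transform at infinity -/
theorem norm_cau_le_far {R ε : ℝ} (hR0 : 0 < R) (hR : ∀ x, R ≤ ‖x‖ → g x = 0)
    (hε : ∀ x, ‖g x‖ ≤ ε) {z : ℂ} (hz : 2 * R ≤ ‖z‖) :
    ‖cau g z‖ ≤ (2 * π⁻¹ * volume.real (ball (0 : ℂ) R) * ε) * ‖z‖⁻¹ := by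
  have hε0 : 0 ≤ ε := (norm_nonneg _).trans (hε 0)
  have hz0 : 0 < ‖z‖ := by linarith
  rw [cau_eq']
  have hk1 : Integrable (fun t : ℂ => (ball (0 : ℂ) R).indicator
      (fun _ => 2 * π⁻¹ * ε * ‖z‖⁻¹) t) := by
    rw [integrable_indicator_iff isOpen_ball.measurableSet]
    exact integrableOn_const (by exact measure_ball_lt_top.ne)
  have hb : ∀ t : ℂ, ‖H439.ker1 (z - t) * g t‖ ≤
      (ball (0 : ℂ) R).indicator (fun _ => 2 * π⁻¹ * ε * ‖z‖⁻¹) t := by
    intro t
    rw [norm_mul]
    by_cases ht : R ≤ ‖t‖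
    · rw [hR t ht, norm_zero, mul_zero]
      refine indicator_nonneg (fun _ _ => ?_) _
      have := Real.pi_pos
      positivity
    · have ht' : t ∈ ball (0 : ℂ) R := by simpa using not_le.1 ht
      rw [indicator_of_mem ht']
      have h1 : ‖z‖ / 2 ≤ ‖z - t‖ := by
        have := norm_sub_norm_le z t
        have h3 := not_le.1 ht
        linarith
      have h2 : ‖H439.ker1 (z - t)‖ ≤ 2 * π⁻¹ * ‖z‖⁻¹ := by
        unfold H439.ker1
        rw [norm_inv, norm_mul, Complex.norm_real, Real.norm_eq_abs, abs_of_pos Real.pi_pos]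
        have e : 2 * π⁻¹ * ‖z‖⁻¹ = (π * (‖z‖ / 2))⁻¹ := by
          have := Real.pi_pos
          field_simp
        rw [e]
        refine inv_anti₀ (by have := Real.pi_pos; positivity) ?_
        exact mul_le_mul_of_nonneg_left h1 Real.pi_pos.le
      have h3 : 0 ≤ 2 * π⁻¹ * ‖z‖⁻¹ := by
        have := Real.pi_pos
        positivity
      calc ‖H439.ker1 (z - t)‖ * ‖g t‖ ≤ (2 * π⁻¹ * ‖z‖⁻¹) * ε :=
            mul_le_mul h2 (hε t) (norm_nonneg _) h3
        _ = _ := by ring
  refine (norm_integral_le_of_norm_le hk1 (Eventually.of_forall hb)).trans (le_of_eq ?_)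
  rw [integral_indicator isOpen_ball.measurableSet, setIntegral_const, smul_eq_mul]
  ring

/-- the Cauchy transform at infinity: `w⁻¹ * cau g w⁻¹` extends smoothly over `w = 0` -/
theorem exists_cau_inf (hg : ContDiff ℝ ∞ g) (hs : HasCompactSupport g) :
    ∃ v : ℂ → ℂ, ContDiff ℝ ∞ v ∧ DifferentiableAt ℂ v 0 ∧
      ∀ w, w ≠ 0 → v w = w⁻¹ * cau g w⁻¹ := by
  obtain ⟨R, hR0, hR⟩ := exists_ball hs
  obtain ⟨ε, hε⟩ : ∃ ε, ∀ x, ‖g x‖ ≤ ε := by
    obtain ⟨ε, hε⟩ := hs.exists_bound_of_continuous hg.continuous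
    exact ⟨ε, hε⟩
  set f : ℂ → ℂ := fun w => w⁻¹ * cau g w⁻¹ with hf
  set s : Set ℂ := ball 0 (2 * R)⁻¹ with hsd
  have hs0 : s ∈ 𝓝 (0 : ℂ) := ball_mem_nhds _ (by positivity)
  have hbig : ∀ w ∈ s \ {0}, 2 * R ≤ ‖w⁻¹‖ := by
    rintro w ⟨hw, hw0⟩
    have h1 : ‖w‖ < (2 * R)⁻¹ := by simpa [hsd] using hw
    rw [norm_inv]
    have h2 := inv_anti₀ (norm_pos_iff.2 hw0) h1.le
    rwa [inv_inv] at h2
  have hinvd : ∀ w : ℂ, w ≠ 0 → DifferentiableAt ℂ (fun w : ℂ => w⁻¹) w :=
    fun w hw => differentiableAt_inv hw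
  have hd : DifferentiableOn ℂ f (s \ {0}) := by
    intro w hw
    have hw0 : w ≠ 0 := hw.2
    refine (DifferentiableAt.mul (hinvd w hw0) ?_).differentiableWithinAt
    have h1 : DifferentiableAt ℂ (cau g) w⁻¹ := by
      refine differentiableAt_of_db ((contDiff_cau hg hs).differentiable (by simp) _) ?_
      rw [db_cau hg hs]
      refine hR _ ?_
      have := hbig w hw
      linarith
    exact DifferentiableAt.comp (g := cau g) (f := fun w : ℂ => w⁻¹) w h1 (hinvd w hw0)
  have hb : BddAbove (norm ∘ f '' (s \ {0})) := by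
    refine ⟨2 * π⁻¹ * volume.real (ball (0 : ℂ) R) * ε, ?_⟩
    rintro _ ⟨w, hw, rfl⟩
    have hw0 : w ≠ 0 := hw.2
    have h1 := norm_cau_le_far hR0 hR hε (hbig w hw)
    simp only [Function.comp_apply, hf, norm_mul]
    have hn : 0 < ‖w‖ := norm_pos_iff.2 hw0
    rw [norm_inv, inv_inv] at h1
    rw [norm_inv]
    calc ‖w‖⁻¹ * ‖cau g w⁻¹‖ ≤ ‖w‖⁻¹ * ((2 * π⁻¹ * volume.real (ball (0 : ℂ) R) * ε) * ‖w‖) :=
          mul_le_mul_of_nonneg_left h1 (by positivity)
      _ = _ := by field_simp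
  have hmain := Complex.differentiableOn_update_limUnder_of_bddAbove hs0 hd hb
  refine ⟨Function.update f 0 (limUnder (𝓝[≠] 0) f), ?_, hmain.differentiableAt hs0,
    fun w hw => ?_⟩
  · rw [contDiff_iff_contDiffAt]
    intro w
    by_cases hw : w = 0
    · subst hw
      have h1 : ContDiffOn ℂ ∞ (Function.update f 0 (limUnder (𝓝[≠] 0) f)) s :=
        hmain.contDiffOn isOpen_ball
      exact ((h1.contDiffAt hs0).restrict_scalars ℝ)
    · have h1 : Function.update f 0 (limUnder (𝓝[≠] 0) f) =ᶠ[𝓝 w] f := by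
        filter_upwards [isOpen_ne.mem_nhds hw] with y hy
        exact Function.update_of_ne hy _ _
      refine ContDiffAt.congr_of_eventuallyEq ?_ h1
      have h2 : ContDiffAt ℝ ∞ (fun w : ℂ => w⁻¹) w := by
        exact contDiffAt_inv ℝ hw
      exact h2.mul (((contDiff_cau hg hs).contDiffAt).comp w h2)
  · exact Function.update_of_ne hw _ _

end

end Vale.Agent.P267.H205.P1
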