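import Vale.Agent.P267.H205.P1a

/-!
# P267, block G, package G-P1 (helper205): holomorphic line bundles on `ℙ¹`

`LP1 E` : a smooth family of rank one projections `T₀ z` (in the coordinate `z`), `T₁ w` (in the
coordinate `w = 1/z`) of a fixed Hilbert space `E`, with the `(0,1)`-form `a₀ dz̄ = a₁ dw̄` which
defines the operator `∂̄ s = T ∂̄s + a s` on sections.
-/

open Filter Topology MeasureTheory Set Metric
open scoped ContDiff Real ComplexConjugate

namespace Vale.Agent.P267.H205.P1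

noncomputable section

variable {E : Type*} [NormedAddCommGroup E] [InnerProductSpace ℂ E]

/-- a line bundle with `∂̄`-operator on an open subset of the plane: data on the whole plane -/
structure LC (E : Type*) [NormedAddCommGroup E] [InnerProductSpace ℂ E] where
  T : ℂ → E →L[ℂ] E
  a : ℂ → ℂ
  smooth_T : ContDiff ℝ ∞ T
  smooth_a : ContDiff ℝ ∞ a
  idem : ∀ z v, T z (T z v) = T z v
  rank : ∀ z, ∃ e, e ≠ 0 ∧ T z e = e ∧ ∀ v, ∃ c : ℂ, T z v = c • e

namespace LC

variable (Λ : LC E)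

/-- the operator `∂̄` on sections -/
def D (s : ℂ → E) (z : ℂ) : E := Λ.T z (db s z) + Λ.a z • s z

/-- sections over the whole plane -/
def IsSec (s : ℂ → E) : Prop := ContDiff ℝ ∞ s ∧ ∀ z, Λ.T z (s z) = s z

theorem D_congr {s t : ℂ → E} {z : ℂ} (h : s =ᶠ[𝓝 z] t) : Λ.D s z = Λ.D t z := by
  unfold D
  rw [db_congr h, h.eq_of_nhds]

theorem D_smul {u : ℂ → ℂ} {s : ℂ → E} {z : ℂ} (hu : DifferentiableAt ℝ u z)
    (hs : DifferentiableAt ℝ s z) (hT : Λ.T z (s z) = s z) :
    Λ.D (fun x => u x • s x) z = u z • Λ.D s z + db u z • s z := by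
  unfold D
  rw [db_smul hu hs, map_add, map_smul, map_smul, hT]
  module

/-- two vectors of the same fibre are proportional -/
theorem exists_smul {z : ℂ} {v w : E} (hv : Λ.T z v = v) (hw : Λ.T z w = w) (h0 : w ≠ 0) :
    ∃ c : ℂ, v = c • w := by
  obtain ⟨e, -, -, he⟩ := Λ.rank z
  obtain ⟨c, hc⟩ := he v
  obtain ⟨d, hd⟩ := he w
  rw [hv] at hc
  rw [hw] at hd
  have hd0 : d ≠ 0 := by
    rintro rfl
    rw [zero_smul] at hd
    exact h0 hd
  refine ⟨c * d⁻¹, ?_⟩
  rw [hc, hd, smul_smul, mul_assoc, inv_mul_cancel₀ hd0, mul_one]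

theorem eq_inner_smul {z : ℂ} {v w : E} (hv : Λ.T z v = v) (hw : Λ.T z w = w) (h0 : w ≠ 0) :
    v = (inner ℂ w v / inner ℂ w w) • w := by
  obtain ⟨c, hc⟩ := Λ.exists_smul hv hw h0
  have h1 : inner ℂ w w ≠ (0 : ℂ) := by
    rw [Ne, inner_self_eq_zero]
    exact h0
  rw [hc, inner_smul_right, mul_div_assoc, div_self h1, mul_one]

/-- a nonzero vector in a fibre stays nonzero when projected to a nearby fibre -/
theorem T_ne_zero {x y : ℂ} (h : ‖Λ.T x - Λ.T y‖ < 1) {v : E} (hv : Λ.T y v = v) (h0 : v ≠ 0) :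
    Λ.T x v ≠ 0 := by
  intro hx
  have h1 : (Λ.T x - Λ.T y) v = -v := by
    rw [sub_apply, hx, hv, zero_sub]
  have h2 := (Λ.T x - Λ.T y).le_opNorm v
  rw [h1, norm_neg] at h2
  have h3 : 0 < ‖v‖ := norm_pos_iff.2 h0
  nlinarith

/-- step by step transport along rays -/
def tr (N : ℕ) (v : E) : ℕ → ℂ → E
  | 0, _ => v
  | (j + 1), z => Λ.T (((j + 1 : ℕ) / N : ℂ) * z) (tr N v j z)

theorem tr_contDiff (N : ℕ) (v : E) (j : ℕ) : ContDiff ℝ ∞ (Λ.tr N v j) := by
  induction j with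
  | zero => exact contDiff_const
  | succ j ih =>
    have h1 : ContDiff ℝ ∞ fun z : ℂ => Λ.T (((j + 1 : ℕ) / N : ℂ) * z) := by
      refine Λ.smooth_T.comp ?_
      exact contDiff_const.mul contDiff_id
    have h2 : ContDiff ℝ ∞ fun z : ℂ => (Λ.T (((j + 1 : ℕ) / N : ℂ) * z)) (Λ.tr N v j z) := by
      have h3 : ContDiff ℝ ∞ fun p : (E →L[ℂ] E) × E => p.1 p.2 :=
        (isBoundedBilinearMap_apply (𝕜 := ℂ) (E := E) (F := E)).contDiff.restrict_scalars ℝ
      exact h3.comp (h1.prodMk ih)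
    exact h2

theorem tr_fix (N : ℕ) {v : E} (hv : Λ.T 0 v = v) (j : ℕ) (z : ℂ) :
    Λ.T ((j / N : ℂ) * z) (Λ.tr N v j z) = Λ.tr N v j z := by
  cases j with
  | zero => simp [tr, hv]
  | succ j => exact Λ.idem _ _

theorem tr_ne_zero {R δ : ℝ} {N : ℕ} (hN : 0 < N) (hNR : R / N < δ)
    (hδ : ∀ x ∈ closedBall (0 : ℂ) R, ∀ y ∈ closedBall (0 : ℂ) R, dist x y < δ →
      ‖Λ.T x - Λ.T y‖ < 1)
    {v : E} (hv : Λ.T 0 v = v) (h0 : v ≠ 0) {z : ℂ} (hz : z ∈ closedBall (0 : ℂ) R) (j : ℕ)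
    (hj : j ≤ N) : Λ.tr N v j z ≠ 0 := by
  induction j with
  | zero => exact h0
  | succ j ih =>
    have hN' : (0 : ℝ) < N := by exact_mod_cast hN
    have hzR : ‖z‖ ≤ R := by simpa using hz
    refine Λ.T_ne_zero ?_ (Λ.tr_fix N hv j z) (ih (by omega))
    have hmem : ∀ i : ℕ, i ≤ N → ((i / N : ℂ) * z) ∈ closedBall (0 : ℂ) R := by
      intro i hi
      have h1 : ‖(i / N : ℂ)‖ ≤ 1 := by
        rw [norm_div, Complex.norm_natCast, Complex.norm_natCast]
        exact div_le_one_of_le₀ (by exact_mod_cast hi) hN'.le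
      rw [mem_closedBall, dist_zero_right, norm_mul]
      nlinarith [norm_nonneg z, norm_nonneg (i / N : ℂ)]
    refine hδ _ (hmem _ hj) _ (hmem _ (by omega)) ?_
    rw [dist_eq_norm, ← sub_mul]
    have h2 : (((j + 1 : ℕ) / N : ℂ) - (j / N : ℂ)) = (1 / N : ℂ) := by
      push_cast
      ring
    rw [h2, norm_mul, norm_div, Complex.norm_natCast, norm_one]
    calc 1 / (N : ℝ) * ‖z‖ ≤ 1 / (N : ℝ) * R := mul_le_mul_of_nonneg_left hzR (by positivity)
      _ = R / N := by ring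
      _ < δ := hNR

/-- a smooth section without zeros on a disc -/
theorem exists_smooth_frame (R : ℝ) :
    ∃ s : ℂ → E, Λ.IsSec s ∧ ∀ z ∈ closedBall (0 : ℂ) R, s z ≠ 0 := by
  obtain ⟨v, h0, hv, -⟩ := Λ.rank 0
  have hcont : ContinuousOn Λ.T (closedBall (0 : ℂ) R) := Λ.smooth_T.continuous.continuousOn
  have huc := (isCompact_closedBall (0 : ℂ) R).uniformContinuousOn_of_continuous hcont
  rw [Metric.uniformContinuousOn_iff] at huc
  obtain ⟨δ, hδ0, hδ⟩ := huc 1 one_pos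
  obtain ⟨N, hN⟩ := exists_nat_gt (|R| / δ)
  have hN0 : 0 < N := by
    have : 0 ≤ |R| / δ := by positivity
    have h2 : (0 : ℝ) < N := this.trans_lt hN
    exact_mod_cast h2
  have hN0' : (0 : ℝ) < N := by exact_mod_cast hN0
  have hNR : R / N < δ := by
    rw [div_lt_iff₀ hN0']
    rw [div_lt_iff₀ hδ0] at hN
    have := le_abs_self R
    nlinarith
  refine ⟨Λ.tr N v N, ⟨Λ.tr_contDiff N v N, fun z => ?_⟩, fun z hz => ?_⟩
  · have := Λ.tr_fix N hv N z
    rwa [div_self (by exact_mod_cast hN0.ne'), one_mul] at this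
  · refine Λ.tr_ne_zero hN0 hNR (fun x hx y hy hxy => ?_) hv h0 hz N le_rfl
    have := hδ x hx y hy hxy
    rwa [dist_eq_norm] at this

/-- a holomorphic section without zeros on a disc -/
theorem exists_holo_frame {R : ℝ} (hR : 0 < R) :
    ∃ s : ℂ → E, Λ.IsSec s ∧ ∀ z ∈ closedBall (0 : ℂ) R, s z ≠ 0 ∧ Λ.D s z = 0 := by
  obtain ⟨s, ⟨hs, hfix⟩, hne⟩ := Λ.exists_smooth_frame (R + 2)
  -- the connection form in this frame
  set θ : ℂ → ℂ := fun z => inner ℂ (s z) (Λ.D s z) / inner ℂ (s z) (s z) with hθ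
  have hDs : ContDiff ℝ ∞ (Λ.D s) := by
    have h3 : ContDiff ℝ ∞ fun p : (E →L[ℂ] E) × E => p.1 p.2 :=
      (isBoundedBilinearMap_apply (𝕜 := ℂ) (E := E) (F := E)).contDiff.restrict_scalars ℝ
    exact (h3.comp (Λ.smooth_T.prodMk (contDiff_db hs))).add (Λ.smooth_a.smul hs)
  have hin : ∀ {f g : ℂ → E}, ContDiff ℝ ∞ f → ContDiff ℝ ∞ g →
      ContDiff ℝ ∞ fun z => (inner ℂ (f z) (g z) : ℂ) := fun hf hg => hf.inner ℂ hg
  have hθs : ∀ z ∈ closedBall (0 : ℂ) (R + 2), ContDiffAt ℝ ∞ θ z := by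
    intro z hz
    have hi : ContDiffAt ℝ ∞ (fun z => (inner ℂ (s z) (s z) : ℂ)⁻¹) z := by
      refine ((hin hs hs).contDiffAt).inv ?_
      rw [Ne, inner_self_eq_zero]
      exact hne z hz
    have h2 := ((hin hs hDs).contDiffAt (x := z)).mul hi
    refine h2.congr_of_eventuallyEq (Eventually.of_forall fun y => ?_)
    simp [hθ, div_eq_mul_inv]
  let B : ContDiffBump (0 : ℂ) := ⟨R + 1 / 2, R + 1, by linarith, by linarith⟩
  set g : ℂ → ℂ := fun z => -(((B z : ℝ) : ℂ) * θ z) with hg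
  have hBs : ContDiff ℝ ∞ fun z : ℂ => ((B z : ℝ) : ℂ) :=
    Complex.ofRealCLM.contDiff.comp B.contDiff
  have hgs : ContDiff ℝ ∞ g := by
    rw [contDiff_iff_contDiffAt]
    intro z
    by_cases hz : z ∈ closedBall (0 : ℂ) (R + 2)
    · exact ((hBs.contDiffAt).mul (hθs z hz)).neg
    · have hev : ∀ᶠ y in 𝓝 z, g y = 0 := by
        filter_upwards [isClosed_closedBall.isOpen_compl.mem_nhds hz] with y hy
        have hy2 : R + 2 < ‖y‖ := by simpa using hy
        have : B y = 0 := by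
          apply B.zero_of_le_dist
          rw [dist_zero_right]
          show R + 1 ≤ ‖y‖
          linarith
        simp [hg, this]
      exact (contDiffAt_const (c := (0 : ℂ))).congr_of_eventuallyEq hev
  have hcs : HasCompactSupport g := by
    refine HasCompactSupport.intro (isCompact_closedBall (0 : ℂ) (R + 2)) fun z hz => ?_
    have hy2 : R + 2 < ‖z‖ := by simpa using hz
    have : B z = 0 := by
      apply B.zero_of_le_dist
      rw [dist_zero_right]
      show R + 1 ≤ ‖z‖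
      linarith
    simp [hg, this]
  refine ⟨fun z => Complex.exp (cau g z) • s z, ⟨?_, fun z => ?_⟩, fun z hz => ⟨?_, ?_⟩⟩
  · exact ((contDiff_cau hgs hcs).cexp).smul hs
  · rw [map_smul, hfix]
  · refine smul_ne_zero (Complex.exp_ne_zero _) (hne z ?_)
    exact closedBall_subset_closedBall (by linarith) hz
  · have hz2 : z ∈ closedBall (0 : ℂ) (R + 2) := closedBall_subset_closedBall (by linarith) hz
    have hd1 : DifferentiableAt ℝ (cau g) z := (contDiff_cau hgs hcs).differentiable (by simp) z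
    have hd2 : DifferentiableAt ℝ s z := hs.differentiable (by simp) z
    have h1 := Λ.D_smul (u := fun x => Complex.exp (cau g x)) hd1.cexp hd2 (hfix z)
    rw [h1, db_cexp hd1, db_cau hgs hcs]
    have hB1 : B z = 1 := by
      apply B.one_of_mem_closedBall
      exact closedBall_subset_closedBall (show R ≤ R + 1 / 2 by linarith) hz
    have hgz : g z = - θ z := by simp [hg, hB1]
    have hDfix : Λ.T z (Λ.D s z) = Λ.D s z := by
      unfold D
      rw [map_add, map_smul, Λ.idem, hfix]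
    have h2 : Λ.D s z = θ z • s z := Λ.eq_inner_smul hDfix (hfix z) (hne z hz2)
    rw [hgz, h2]
    module

end LC

end

end Vale.Agent.P267.H205.P1
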