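import Vale.Agent.P267.H205.P1b

/-!
# P267, block G, package G-P1 (helper205): logarithms on an annulus, Laurent splitting
-/

open Filter Topology MeasureTheory Set Metric
open scoped ContDiff Real ComplexConjugate

namespace Vale.Agent.P267.H205.P1

noncomputable section

/-- the annulus `r < |z| < R` -/
def ann (r R : ℝ) : Set ℂ := {z | r < ‖z‖ ∧ ‖z‖ < R}

theorem isOpen_ann (r R : ℝ) : IsOpen (ann r R) :=
  (isOpen_lt continuous_const continuous_norm).inter (isOpen_lt continuous_norm continuous_const)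

theorem ne_zero_of_ann {r R : ℝ} (hr : 0 < r) {z : ℂ} (hz : z ∈ ann r R) : z ≠ 0 := by
  rintro rfl
  have := hz.1
  simp only [norm_zero] at this
  linarith

/-- a continuous logarithm of a holomorphic function is holomorphic -/
theorem differentiableAt_of_exp {h g : ℂ → ℂ} {z : ℂ} (hc : ContinuousAt h z)
    (hg : DifferentiableAt ℂ g z) (he : ∀ᶠ y in 𝓝 z, Complex.exp (h y) = g y) :
    DifferentiableAt ℂ h z := by
  have h0 : g z ≠ 0 := by
    rw [← he.self_of_nhds]
    exact Complex.exp_ne_zero _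
  have h1 : ∀ᶠ y in 𝓝 z, h y = h z + Complex.log (g y / g z) := by
    have h2 : ∀ᶠ y in 𝓝 z, ‖h y - h z‖ < π := by
      have := Metric.continuousAt_iff.1 hc π Real.pi_pos
      obtain ⟨δ, hδ, h3⟩ := this
      filter_upwards [ball_mem_nhds z hδ] with y hy
      have := h3 hy
      rwa [dist_eq_norm] at this
    filter_upwards [h2, he] with y hy hey
    have h3 : g y / g z = Complex.exp (h y - h z) := by
      rw [Complex.exp_sub, hey, he.self_of_nhds]
    have h4 : |(h y - h z).im| < π := (Complex.abs_im_le_norm _).trans_lt hy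
    rw [h3, Complex.log_exp (abs_lt.1 h4).1 (abs_lt.1 h4).2.le]
    ring
  have h5 : DifferentiableAt ℂ (fun y => h z + Complex.log (g y / g z)) z := by
    refine (differentiableAt_const _).add (DifferentiableAt.clog (hg.div_const _) ?_)
    rw [div_self h0]
    exact Complex.one_mem_slitPlane
  exact h5.congr_of_eventuallyEq h1

/-- a holomorphic function without zeros on an annulus is `z ^ m * exp (h z)` -/
theorem exists_log_ann {r R : ℝ} (hr : 0 < r) (hrR : r < R) {g : ℂ → ℂ}
    (hg : DifferentiableOn ℂ g (ann r R)) (h0 : ∀ z ∈ ann r R, g z ≠ 0) :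
    ∃ (m : ℤ) (h : ℂ → ℂ), DifferentiableOn ℂ h (ann r R) ∧
      ∀ z ∈ ann r R, g z = z ^ m * Complex.exp (h z) := by
  set S : Set ℂ := {ζ | Real.log r < ζ.re ∧ ζ.re < Real.log R} with hS
  have hR : 0 < R := hr.trans hrR
  have hSo : IsOpen S := (isOpen_lt continuous_const Complex.continuous_re).inter
    (isOpen_lt Complex.continuous_re continuous_const)
  have hSc : Convex ℝ S := by
    have : S = Complex.reLm ⁻¹' (Ioo (Real.log r) (Real.log R)) := rfl
    rw [this]
    exact (convex_Ioo _ _).linear_preimage _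
  have hSn : S.Nonempty := by
    refine ⟨((Real.log r + Real.log R) / 2 : ℝ), ?_⟩
    have := Real.log_lt_log hr hrR
    constructor
    · rw [Complex.ofReal_re]; linarith
    · rw [Complex.ofReal_re]; linarith
  have hexp : ∀ ζ ∈ S, Complex.exp ζ ∈ ann r R := by
    intro ζ hζ
    refine ⟨?_, ?_⟩
    · rw [Complex.norm_exp]
      have := Real.exp_lt_exp.2 hζ.1
      rwa [Real.exp_log hr] at this
    · rw [Complex.norm_exp]
      have := Real.exp_lt_exp.2 hζ.2
      rwa [Real.exp_log hR] at this
  have hsc : IsSimplyConnected S := by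
    have := hSc.contractibleSpace hSn
    exact (inferInstance : SimplyConnectedSpace S)
  obtain ⟨H, hHc, hH⟩ := Complex.exists_continuousOn_eqOn_exp_comp hsc hSo
    (g := fun ζ => g (Complex.exp ζ))
    (hg.continuousOn.comp Complex.continuous_exp.continuousOn hexp)
    (by
      rintro ⟨ζ, hζ, hz⟩
      exact h0 _ (hexp ζ hζ) hz)
  have hH' : ∀ ζ ∈ S, Complex.exp (H ζ) = g (Complex.exp ζ) := fun ζ hζ => hH hζ
  have hshift : ∀ ζ ∈ S, ∀ n : ℤ, ζ + n * (2 * π * Complex.I) ∈ S := by
    intro ζ hζ n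
    have : (ζ + n * (2 * π * Complex.I)).re = ζ.re := by
      simp
    exact ⟨by rw [this]; exact hζ.1, by rw [this]; exact hζ.2⟩
  -- the period
  have hper : ∀ ζ ∈ S, ∃ n : ℤ, H (ζ + 2 * π * Complex.I) = H ζ + n * (2 * π * Complex.I) := by
    intro ζ hζ
    have h1 := hshift ζ hζ 1
    rw [Int.cast_one, one_mul] at h1
    rw [← Complex.exp_eq_exp_iff_exists_int, hH' _ h1, hH' _ hζ, Complex.exp_periodic ζ]
  set φ : ℂ → ℝ := fun ζ => ((H (ζ + 2 * π * Complex.I) - H ζ) / (2 * π * Complex.I)).re with hφ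
  have hφc : ContinuousOn φ S := by
    refine Complex.continuous_re.comp_continuousOn (ContinuousOn.div_const ?_ _)
    refine ContinuousOn.sub (hHc.comp (by fun_prop) fun ζ hζ => ?_) hHc
    have h1 := hshift ζ hζ 1
    rwa [Int.cast_one, one_mul] at h1
  have h2pi : (2 * π * Complex.I : ℂ) ≠ 0 := Complex.two_pi_I_ne_zero
  have hφi : ∀ ζ ∈ S, ∀ n : ℤ, H (ζ + 2 * π * Complex.I) = H ζ + n * (2 * π * Complex.I) →
      φ ζ = n := by
    intro ζ hζ n hn
    simp only [hφ, hn, add_sub_cancel_left]
    rw [mul_div_assoc, div_self h2pi, mul_one]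
    simp
  obtain ⟨ζ₀, hζ₀⟩ := hSn
  obtain ⟨m, hm⟩ := hper ζ₀ hζ₀
  have hconst : ∀ ζ ∈ S, H (ζ + 2 * π * Complex.I) = H ζ + m * (2 * π * Complex.I) := by
    intro ζ hζ
    obtain ⟨n, hn⟩ := hper ζ hζ
    have himg : (φ '' S).OrdConnected :=
      (hSc.isPreconnected.image φ hφc).ordConnected
    have e1 := hφi ζ₀ hζ₀ m hm
    have e2 := hφi ζ hζ n hn
    have hnm : n = m := by
      by_contra hne
      have key : ∀ a b : ℤ, a < b → (a : ℝ) ∈ φ '' S → (b : ℝ) ∈ φ '' S → False := by
        intro a b hab ha hb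
        have hab' : ((a : ℝ) + 1) ≤ b := by exact_mod_cast hab
        have h1 : ((a : ℝ) + 1 / 2) ∈ φ '' S :=
          himg.out ha hb ⟨by linarith, by linarith⟩
        obtain ⟨ξ, hξ, hξe⟩ := h1
        obtain ⟨j, hj⟩ := hper ξ hξ
        have h2 := hφi ξ hξ j hj
        rw [h2] at hξe
        have h3 : (2 * j : ℝ) = 2 * a + 1 := by linarith
        have h4 : 2 * j = 2 * a + 1 := by exact_mod_cast h3
        omega
      rcases lt_or_gt_of_ne hne with h | h
      · exact key n m h ⟨ζ, hζ, e2⟩ ⟨ζ₀, hζ₀, e1⟩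
      · exact key m n h ⟨ζ₀, hζ₀, e1⟩ ⟨ζ, hζ, e2⟩
    rw [hn, hnm]
  have hconst' : ∀ ζ ∈ S, ∀ n : ℤ,
      H (ζ + n * (2 * π * Complex.I)) = H ζ + m * (n * (2 * π * Complex.I)) := by
    intro ζ hζ n
    induction n using Int.induction_on with
    | zero => simp
    | succ i ih =>
      have h1 := hconst _ (hshift ζ hζ i)
      rw [ih] at h1
      have e : ζ + ((i : ℤ) : ℂ) * (2 * π * Complex.I) + 2 * π * Complex.I =
          ζ + (((i : ℤ) + 1 : ℤ) : ℂ) * (2 * π * Complex.I) := by
        push_cast; ring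
      rw [e] at h1
      rw [h1]
      push_cast; ring
    | pred i ih =>
      have h1 := hconst _ (hshift ζ hζ (-(i : ℤ) - 1))
      have e : ζ + ((-(i : ℤ) - 1 : ℤ) : ℂ) * (2 * π * Complex.I) + 2 * π * Complex.I =
          ζ + ((-(i : ℤ) : ℤ) : ℂ) * (2 * π * Complex.I) := by
        push_cast; ring
      rw [e, ih] at h1
      have h2 : H (ζ + ((-(i : ℤ) - 1 : ℤ) : ℂ) * (2 * π * Complex.I)) =
          H ζ + m * (((-(i : ℤ) : ℤ) : ℂ) * (2 * π * Complex.I)) - m * (2 * π * Complex.I) := by
        rw [h1]; ring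
      rw [h2]
      push_cast; ring
  -- the logarithm on the annulus
  have hlogS : ∀ z ∈ ann r R, ∀ L : ℂ, Complex.exp L = z → L ∈ S := by
    intro z hz L hL
    have h1 : Real.exp L.re = ‖z‖ := by rw [← Complex.norm_exp, hL]
    refine ⟨?_, ?_⟩
    · rw [← Real.exp_lt_exp, Real.exp_log hr, h1]; exact hz.1
    · rw [← Real.exp_lt_exp, Real.exp_log hR, h1]; exact hz.2
  set h : ℂ → ℂ := fun z => H (Complex.log z) - m * Complex.log z with hh
  have hval : ∀ z ∈ ann r R, ∀ L : ℂ, Complex.exp L = z → h z = H L - m * L := by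
    intro z hz L hL
    have hz0 := ne_zero_of_ann hr hz
    have h1 : Complex.exp L = Complex.exp (Complex.log z) := by rw [hL, Complex.exp_log hz0]
    obtain ⟨n, hn⟩ := Complex.exp_eq_exp_iff_exists_int.1 h1
    rw [hn, hconst' _ (hlogS z hz _ (Complex.exp_log hz0)) n]
    simp only [hh]
    ring
  have hexph : ∀ z ∈ ann r R, Complex.exp (h z) = g z * z ^ (-m) := by
    intro z hz
    have hz0 := ne_zero_of_ann hr hz
    simp only [hh]
    rw [Complex.exp_sub, hH' _ (hlogS z hz _ (Complex.exp_log hz0)), Complex.exp_int_mul,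
      Complex.exp_log hz0, zpow_neg, div_eq_mul_inv]
  refine ⟨m, h, fun z hz => ?_, fun z hz => ?_⟩
  · have hz0 := ne_zero_of_ann hr hz
    have hnhds : ann r R ∈ 𝓝 z := (isOpen_ann r R).mem_nhds hz
    refine DifferentiableAt.differentiableWithinAt ?_
    refine differentiableAt_of_exp (g := fun y => g y * y ^ (-m)) ?_ ?_ ?_
    · -- continuity
      have hL : ContinuousAt (fun y : ℂ => Complex.log z + Complex.log (y / z)) z := by
        refine continuousAt_const.add (ContinuousAt.clog ?_ ?_)
        · exact continuousAt_id.div_const _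
        · rw [div_self hz0]
          exact Complex.one_mem_slitPlane
      have hLz : Complex.log z + Complex.log (z / z) = Complex.log z := by
        rw [div_self hz0, Complex.log_one, add_zero]
      have hev : h =ᶠ[𝓝 z] fun y => H (Complex.log z + Complex.log (y / z)) -
          m * (Complex.log z + Complex.log (y / z)) := by
        filter_upwards [hnhds] with y hy
        refine hval y hy _ ?_
        have hy0 := ne_zero_of_ann hr hy
        rw [Complex.exp_add, Complex.exp_log hz0, Complex.exp_log (div_ne_zero hy0 hz0)]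
        field_simp
      have hS1 : Complex.log z + Complex.log (z / z) ∈ S := by
        rw [hLz]
        exact hlogS z hz _ (Complex.exp_log hz0)
      have hHc1 : ContinuousAt H (Complex.log z + Complex.log (z / z)) :=
        hHc.continuousAt (hSo.mem_nhds hS1)
      have hc2 : ContinuousAt (fun y : ℂ => H (Complex.log z + Complex.log (y / z))) z :=
        ContinuousAt.comp (g := H) (f := fun y : ℂ => Complex.log z + Complex.log (y / z)) hHc1 hL
      exact (hc2.sub (continuousAt_const.mul hL)).congr hev.symm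
    · exact (hg.differentiableAt hnhds).mul (differentiableAt_id.zpow (Or.inl hz0))
    · filter_upwards [hnhds] with y hy
      exact hexph y hy
  · have hz0 := ne_zero_of_ann hr hz
    rw [hexph z hz, mul_comm (g z), ← mul_assoc, zpow_neg, mul_inv_cancel₀ (zpow_ne_zero m hz0),
      one_mul]

end

end Vale.Agent.P267.H205.P1
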