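import Vale.Agent.P267.H205.P1c

/-!
# P267, block G, package G-P1 (helper205): holomorphic line bundles on `ℙ¹` are the `O(k)`
-/

open Filter Topology MeasureTheory Set Metric
open scoped ContDiff Real ComplexConjugate

namespace Vale.Agent.P267.H205.P1

noncomputable section

/-- cut-off function: `1` for `|z| ≤ 3/4`, `0` for `|z| ≥ 3/2` -/
def cutB : ContDiffBump (0 : ℂ) := ⟨3 / 4, 3 / 2, by norm_num, by norm_num⟩

/-- cut-off function: `1` for `|z| ≤ 3/4`, `0` for `|z| ≥ 3/2` -/
def chi (z : ℂ) : ℂ := ((cutB z : ℝ) : ℂ)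

theorem chi_contDiff : ContDiff ℝ ∞ chi := Complex.ofRealCLM.contDiff.comp cutB.contDiff

theorem chi_one {z : ℂ} (hz : ‖z‖ ≤ 3 / 4) : chi z = 1 := by
  have : cutB z = 1 := cutB.one_of_mem_closedBall (by simpa [cutB] using hz)
  simp [chi, this]

theorem chi_zero {z : ℂ} (hz : 3 / 2 ≤ ‖z‖) : chi z = 0 := by
  have : cutB z = 0 := cutB.zero_of_le_dist (by simpa [cutB] using hz)
  simp [chi, this]

theorem norm_chi_le (z : ℂ) : ‖chi z‖ ≤ 1 := by
  rw [chi, Complex.norm_real, Real.norm_eq_abs, abs_of_nonneg cutB.nonneg]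
  exact cutB.le_one

theorem norm_one_sub_chi_le (z : ℂ) : ‖1 - chi z‖ ≤ 1 := by
  have : (1 : ℂ) - chi z = ((1 - cutB z : ℝ) : ℂ) := by simp [chi]
  rw [this, Complex.norm_real, Real.norm_eq_abs, abs_of_nonneg]
  · linarith [cutB.nonneg (x := z)]
  · linarith [cutB.le_one (x := z)]

theorem db_chi_of_lt {z : ℂ} (hz : ‖z‖ < 3 / 4) : db chi z = 0 := by
  have : chi =ᶠ[𝓝 z] fun _ => 1 := by
    filter_upwards [(isOpen_lt continuous_norm continuous_const).mem_nhds hz] with y hy
    exact chi_one (le_of_lt hy)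
  rw [db_congr this, db_const]

theorem db_chi_of_gt {z : ℂ} (hz : 3 / 2 < ‖z‖) : db chi z = 0 := by
  have : chi =ᶠ[𝓝 z] fun _ => 0 := by
    filter_upwards [(isOpen_lt continuous_const continuous_norm).mem_nhds hz] with y hy
    exact chi_zero (le_of_lt hy)
  rw [db_congr this, db_const]

theorem differentiableAt_inv' {w : ℂ} (hw : w ≠ 0) : DifferentiableAt ℂ (fun w : ℂ => w⁻¹) w :=
  differentiableAt_inv hw

theorem deriv_inv_fun (w : ℂ) : deriv (fun w : ℂ => w⁻¹) w = -(w ^ 2)⁻¹ := deriv_inv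

theorem norm_inv_mem {w : ℂ} (hw : w ∈ ann (1 / 2) 2) : w⁻¹ ∈ ann (1 / 2) 2 := by
  have h0 : w ≠ 0 := ne_zero_of_ann (by norm_num) hw
  have hn : 0 < ‖w‖ := norm_pos_iff.2 h0
  refine ⟨?_, ?_⟩
  · rw [norm_inv, lt_inv_comm₀ (by norm_num) hn]
    have := hw.2
    norm_num
    exact this
  · rw [norm_inv, inv_lt_comm₀ hn (by norm_num)]
    have := hw.1
    norm_num at this ⊢
    exact this

/-- Laurent splitting -/
theorem exists_split {h : ℂ → ℂ} (hh : DifferentiableOn ℂ h (ann (1 / 2) 2)) :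
    ∃ h₀ h₁ : ℂ → ℂ, DifferentiableOn ℂ h₀ (ball 0 2) ∧ DifferentiableOn ℂ h₁ (ball 0 2) ∧
      ∀ z ∈ ann (1 / 2) 2, h z = h₀ z + h₁ z⁻¹ := by
  have hsm : ∀ z ∈ ann (1 / 2) 2, ContDiffAt ℝ ∞ h z := fun z hz =>
    ((hh.contDiffOn (isOpen_ann _ _)).contDiffAt ((isOpen_ann _ _).mem_nhds hz)).restrict_scalars ℝ
  have hdc : ∀ z ∈ ann (1 / 2) 2, DifferentiableAt ℂ h z := fun z hz =>
    hh.differentiableAt ((isOpen_ann _ _).mem_nhds hz)
  have hdr : ∀ z ∈ ann (1 / 2) 2, DifferentiableAt ℝ h z := fun z hz =>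
    (hdc z hz).restrictScalars ℝ
  have hχ : ∀ z, DifferentiableAt ℝ chi z := fun z => chi_contDiff.differentiable (by simp) z
  set γ : ℂ → ℂ := fun z => db chi z * h z with hγ
  have hout : ∀ z, z ∉ ann (1 / 2) 2 → ∀ᶠ y in 𝓝 z, db chi y = 0 := by
    intro z hz
    by_cases h1 : ‖z‖ < 3 / 4
    · filter_upwards [(isOpen_lt continuous_norm continuous_const).mem_nhds h1] with y hy
      exact db_chi_of_lt hy
    · have h2 : 3 / 2 < ‖z‖ := by
        by_contra h2
        exact hz ⟨by linarith [not_lt.1 h1], by linarith [not_lt.1 h2]⟩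
      filter_upwards [(isOpen_lt continuous_const continuous_norm).mem_nhds h2] with y hy
      exact db_chi_of_gt hy
  have hγs : ContDiff ℝ ∞ γ := by
    rw [contDiff_iff_contDiffAt]
    intro z
    by_cases hz : z ∈ ann (1 / 2) 2
    · exact ((contDiff_db chi_contDiff).contDiffAt).mul (hsm z hz)
    · have hev : ∀ᶠ y in 𝓝 z, γ y = 0 := by
        filter_upwards [hout z hz] with y hy
        simp [hγ, hy]
      exact (contDiffAt_const (c := (0 : ℂ))).congr_of_eventuallyEq hev
  have hγcs : HasCompactSupport γ := by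
    refine HasCompactSupport.intro (isCompact_closedBall (0 : ℂ) 2) fun z hz => ?_
    have h2 : 3 / 2 < ‖z‖ := by
      have : 2 < ‖z‖ := by simpa using hz
      linarith
    simp [hγ, db_chi_of_gt h2]
  set U : ℂ → ℂ := cau γ with hU
  have hUs : ContDiff ℝ ∞ U := contDiff_cau hγs hγcs
  have hUd : ∀ z, DifferentiableAt ℝ U z := fun z => hUs.differentiable (by simp) z
  have hUdb : ∀ z, db U z = γ z := fun z => db_cau hγs hγcs z
  obtain ⟨v, hvs, hv0, hv⟩ := exists_cau_inf hγs hγcs
  set h₁ : ℂ → ℂ := fun w => if ‖w‖ ≤ 1 / 2 then -(w * v w) else chi w⁻¹ * h w⁻¹ - U w⁻¹ with hh₁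
  have hv' : ∀ w : ℂ, w ≠ 0 → w * v w = U w⁻¹ := by
    intro w hw
    rw [hv w hw, ← mul_assoc, mul_inv_cancel₀ hw, one_mul]
  refine ⟨fun z => (1 - chi z) * h z + U z, h₁, ?_, ?_, ?_⟩
  · intro z hz
    have hz2 : ‖z‖ < 2 := by simpa using hz
    refine DifferentiableAt.differentiableWithinAt ?_
    by_cases h1 : ‖z‖ < 3 / 4
    · have h2 : (fun z => (1 - chi z) * h z + U z) =ᶠ[𝓝 z] U := by
        filter_upwards [(isOpen_lt continuous_norm continuous_const).mem_nhds h1] with y hy
        rw [chi_one (le_of_lt hy)]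
        ring
      refine DifferentiableAt.congr_of_eventuallyEq ?_ h2
      refine differentiableAt_of_db (hUd z) ?_
      rw [hUdb]
      simp [hγ, db_chi_of_lt h1]
    · have hza : z ∈ ann (1 / 2) 2 := ⟨by linarith [not_lt.1 h1], hz2⟩
      have d1 : DifferentiableAt ℝ (fun z => 1 - chi z) z := (hχ z).const_sub 1
      have d2 : DifferentiableAt ℝ (fun z => (1 - chi z) * h z) z := d1.mul (hdr z hza)
      refine differentiableAt_of_db (d2.add (hUd z)) ?_
      rw [db_add d2 (hUd z), db_mul d1 (hdr z hza), db_of_differentiableAt (hdc z hza), hUdb,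
        db_sub (differentiableAt_const _) (hχ z), db_const]
      simp only [hγ]
      ring
  · intro w hw
    have hw2 : ‖w‖ < 2 := by simpa using hw
    refine DifferentiableAt.differentiableWithinAt ?_
    by_cases h1 : ‖w‖ < 2 / 3
    · have h2 : h₁ =ᶠ[𝓝 w] fun w => -(w * v w) := by
        filter_upwards [(isOpen_lt continuous_norm continuous_const).mem_nhds h1] with y hy
        simp only [hh₁]
        split_ifs with h3
        · rfl
        · have hy0 : y ≠ 0 := by
            rintro rfl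
            simp at h3
          have hn : 0 < ‖y‖ := norm_pos_iff.2 hy0
          have h4 : 3 / 2 ≤ ‖y⁻¹‖ := by
            rw [norm_inv, le_inv_comm₀ (by norm_num) hn]
            have : ‖y‖ < 2 / 3 := hy
            norm_num
            exact this.le
          rw [chi_zero h4, hv' y hy0]
          ring
      refine DifferentiableAt.congr_of_eventuallyEq ?_ h2
      by_cases h0 : w = 0
      · subst h0
        exact ((differentiableAt_id).mul hv0).neg
      · have h3 : (fun w => -(w * v w)) =ᶠ[𝓝 w] fun w => - U w⁻¹ := by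
          filter_upwards [isOpen_ne.mem_nhds h0] with y hy
          rw [hv' y hy]
        refine DifferentiableAt.congr_of_eventuallyEq ?_ h3
        have hn : 0 < ‖w‖ := norm_pos_iff.2 h0
        have h4 : 3 / 2 < ‖w⁻¹‖ := by
          rw [norm_inv, lt_inv_comm₀ (by norm_num) hn]
          norm_num
          exact h1
        have h5 : DifferentiableAt ℂ U w⁻¹ := by
          refine differentiableAt_of_db (hUd _) ?_
          rw [hUdb]
          simp [hγ, db_chi_of_gt h4]
        exact (DifferentiableAt.comp (g := U) (f := fun w : ℂ => w⁻¹) w h5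
          (differentiableAt_inv' h0)).neg
    · have hwa : w ∈ ann (1 / 2) 2 := ⟨by linarith [not_lt.1 h1], hw2⟩
      have hw0 : w ≠ 0 := ne_zero_of_ann (by norm_num) hwa
      have hwa' := norm_inv_mem hwa
      have h2 : h₁ =ᶠ[𝓝 w] fun w => chi w⁻¹ * h w⁻¹ - U w⁻¹ := by
        filter_upwards [(isOpen_ann (1 / 2) 2).mem_nhds hwa] with y hy
        simp only [hh₁]
        rw [if_neg (not_le.2 hy.1)]
      refine DifferentiableAt.congr_of_eventuallyEq ?_ h2
      have hF : DifferentiableAt ℂ (fun z => chi z * h z - U z) w⁻¹ := by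
        have d2 : DifferentiableAt ℝ (fun z => chi z * h z) w⁻¹ := (hχ _).mul (hdr _ hwa')
        refine differentiableAt_of_db (d2.sub (hUd _)) ?_
        rw [db_sub d2 (hUd _), db_mul (hχ _) (hdr _ hwa'), db_of_differentiableAt (hdc _ hwa'),
          hUdb]
        simp only [hγ]
        ring
      exact DifferentiableAt.comp (g := fun z => chi z * h z - U z) (f := fun w : ℂ => w⁻¹) w hF
        (differentiableAt_inv' hw0)
  · intro z hz
    have hz' := norm_inv_mem hz
    have hz0 : z ≠ 0 := ne_zero_of_ann (by norm_num) hz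
    simp only [hh₁]
    rw [if_neg (not_le.2 hz'.1), inv_inv]
    ring

end

end Vale.Agent.P267.H205.P1
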