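import Vale.Agent.P267.H205.P1d

/-!
# P267, block G, package G-P1 (helper205): classification

`LP1 E`: holomorphic line bundles on `ℙ¹`, `Frames Λ k s₀ s₁`: an isomorphism with `O(k)`.
-/

open Filter Topology MeasureTheory Set Metric
open scoped ContDiff Real ComplexConjugate

namespace Vale.Agent.P267.H205.P1

noncomputable section

variable {E : Type*} [NormedAddCommGroup E] [InnerProductSpace ℂ E]

/-- a line bundle on `ℙ¹` with `∂̄`-operator: data `L₀` in the coordinate `z`, `L₁` in the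
coordinate `w = 1/z` -/
structure LP1 (E : Type*) [NormedAddCommGroup E] [InnerProductSpace ℂ E] where
  L₀ : LC E
  L₁ : LC E
  glue_T : ∀ z, z ≠ 0 → L₀.T z = L₁.T z⁻¹
  glue_a : ∀ z, z ≠ 0 → L₀.a z = conj (-(z ^ 2)⁻¹) * L₁.a z⁻¹

/-- the pair `s₀, s₁` consists of nowhere zero holomorphic sections over the two coordinate planes
with transition function `z ^ (-k)`: the bundle is `O(k)` -/
structure Frames (Λ : LP1 E) (k : ℤ) (s₀ s₁ : ℂ → E) : Prop where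
  sec₀ : Λ.L₀.IsSec s₀
  sec₁ : Λ.L₁.IsSec s₁
  ne₀ : ∀ z, s₀ z ≠ 0
  ne₁ : ∀ z, s₁ z ≠ 0
  hol₀ : ∀ z, Λ.L₀.D s₀ z = 0
  hol₁ : ∀ z, Λ.L₁.D s₁ z = 0
  glue : ∀ z, z ≠ 0 → s₀ z = z ^ (-k) • s₁ z⁻¹

namespace LP1

variable (Λ : LP1 E)

/-- exchange of the two coordinate planes -/
def swap : LP1 E where
  L₀ := Λ.L₁
  L₁ := Λ.L₀
  glue_T z hz := by
    have := Λ.glue_T z⁻¹ (inv_ne_zero hz)
    rw [inv_inv] at this
    exact this.symm
  glue_a z hz := by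
    have h := Λ.glue_a z⁻¹ (inv_ne_zero hz)
    rw [inv_inv] at h
    rw [h, ← mul_assoc, ← map_mul]
    have : (-(z ^ 2)⁻¹ * -((z⁻¹) ^ 2)⁻¹ : ℂ) = 1 := by
      field_simp
    rw [this, map_one, one_mul]

/-- the operator `∂̄` in the two coordinates -/
theorem D_comp_inv {s : ℂ → E} {z : ℂ} (hz : z ≠ 0) (hs : DifferentiableAt ℝ s z⁻¹) :
    Λ.L₀.D (fun z => s z⁻¹) z = conj (-(z ^ 2)⁻¹) • Λ.L₁.D s z⁻¹ := by
  unfold LC.D
  rw [db_comp (g := fun z : ℂ => z⁻¹) hs (differentiableAt_inv' hz), deriv_inv_fun, Λ.glue_T z hz,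
    Λ.glue_a z hz, map_smul]
  module

end LP1

/-- the quotient of two holomorphic sections of a line bundle is holomorphic -/
theorem LC.exists_quot (Λ : LC E) {A : Set ℂ} (hA : IsOpen A) {s t : ℂ → E}
    (hs : ContDiffOn ℝ ∞ s A) (ht : ContDiffOn ℝ ∞ t A)
    (hsT : ∀ z ∈ A, Λ.T z (s z) = s z) (htT : ∀ z ∈ A, Λ.T z (t z) = t z)
    (ht0 : ∀ z ∈ A, t z ≠ 0) (hsD : ∀ z ∈ A, Λ.D s z = 0) (htD : ∀ z ∈ A, Λ.D t z = 0) :
    ∃ g : ℂ → ℂ, DifferentiableOn ℂ g A ∧ ∀ z ∈ A, s z = g z • t z := by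
  set g : ℂ → ℂ := fun z => inner ℂ (t z) (s z) / inner ℂ (t z) (t z) with hg
  have hst : ∀ z ∈ A, s z = g z • t z := fun z hz =>
    Λ.eq_inner_smul (hsT z hz) (htT z hz) (ht0 z hz)
  refine ⟨g, fun z hz => ?_, hst⟩
  have hnb := hA.mem_nhds hz
  have hsa := hs.contDiffAt hnb
  have hta := ht.contDiffAt hnb
  have hgs : ContDiffAt ℝ ∞ g z := by
    have hi : ContDiffAt ℝ ∞ (fun z => (inner ℂ (t z) (t z) : ℂ)⁻¹) z := by
      refine (hta.inner ℂ hta).inv ?_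
      rw [Ne, inner_self_eq_zero]
      exact ht0 z hz
    have h2 := (hta.inner ℂ hsa).mul hi
    refine h2.congr_of_eventuallyEq (Eventually.of_forall fun y => ?_)
    simp [hg, div_eq_mul_inv]
  refine (differentiableAt_of_db (hgs.differentiableAt (by simp)) ?_).differentiableWithinAt
  have hev : s =ᶠ[𝓝 z] fun y => g y • t y := by
    filter_upwards [hnb] with y hy
    exact hst y hy
  have h1 := hsD z hz
  rw [Λ.D_congr hev, Λ.D_smul (hgs.differentiableAt (by simp)) (hta.differentiableAt (by simp))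
    (htT z hz), htD z hz, smul_zero, zero_add, smul_eq_zero] at h1
  exact h1.resolve_right (ht0 z hz)

/-- every holomorphic line bundle on `ℙ¹` is some `O(k)` -/
theorem LP1.exists_frames (Λ : LP1 E) : ∃ (k : ℤ) (s₀ s₁ : ℂ → E), Frames Λ k s₀ s₁ := by
  obtain ⟨σ₀, ⟨hσ₀, hfix₀⟩, hF₀⟩ := Λ.L₀.exists_holo_frame (R := 2) (by norm_num)
  obtain ⟨σ₁, ⟨hσ₁, hfix₁⟩, hF₁⟩ := Λ.L₁.exists_holo_frame (R := 2) (by norm_num)
  set A := ann (1 / 2) 2 with hAdef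
  have hA : IsOpen A := isOpen_ann _ _
  have hA0 : ∀ z ∈ A, z ≠ 0 := fun z hz => ne_zero_of_ann (by norm_num) hz
  have hmem : ∀ z : ℂ, ‖z‖ < 2 → z ∈ closedBall (0 : ℂ) 2 := fun z hz => by
    simpa using hz.le
  have hinvs : ∀ z : ℂ, z ≠ 0 → ContDiffAt ℝ ∞ (fun z : ℂ => z⁻¹) z := fun z hz =>
    contDiffAt_inv ℝ hz
  -- transition function
  obtain ⟨g, hg, hσ⟩ := Λ.L₀.exists_quot hA (s := σ₀) (t := fun z => σ₁ z⁻¹)
    hσ₀.contDiffOn
    (fun z hz => ((hσ₁.contDiffAt).comp z (hinvs z (hA0 z hz))).contDiffWithinAt)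
    (fun z _ => hfix₀ z)
    (fun z hz => by rw [Λ.glue_T z (hA0 z hz)]; exact hfix₁ _)
    (fun z hz => (hF₁ _ (hmem _ (norm_inv_mem hz).2)).1)
    (fun z hz => (hF₀ z (hmem _ hz.2)).2)
    (fun z hz => by
      rw [Λ.D_comp_inv (hA0 z hz) (hσ₁.differentiable (by simp) _),
        (hF₁ _ (hmem _ (norm_inv_mem hz).2)).2, smul_zero])
  have hg0 : ∀ z ∈ A, g z ≠ 0 := by
    intro z hz h0
    have h1 := hσ z hz
    rw [h0, zero_smul] at h1
    exact (hF₀ z (hmem _ hz.2)).1 h1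
  obtain ⟨m, h, hh, hgm⟩ := exists_log_ann (r := 1 / 2) (R := 2) (by norm_num) (by norm_num) hg hg0
  obtain ⟨h₀, h₁, hh₀, hh₁, hsplit⟩ := exists_split hh
  -- the new local frames
  set S₀ : ℂ → E := fun z => Complex.exp (-h₀ z) • σ₀ z with hS₀
  set S₁ : ℂ → E := fun w => Complex.exp (h₁ w) • σ₁ w with hS₁
  have hball : ∀ z : ℂ, ‖z‖ < 2 → ball (0 : ℂ) 2 ∈ 𝓝 z := fun z hz =>
    isOpen_ball.mem_nhds (by simpa using hz)
  have ch₀ : ∀ z : ℂ, ‖z‖ < 2 → ContDiffAt ℝ ∞ h₀ z := fun z hz =>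
    ((hh₀.contDiffOn isOpen_ball).contDiffAt (hball z hz)).restrict_scalars ℝ
  have ch₁ : ∀ z : ℂ, ‖z‖ < 2 → ContDiffAt ℝ ∞ h₁ z := fun z hz =>
    ((hh₁.contDiffOn isOpen_ball).contDiffAt (hball z hz)).restrict_scalars ℝ
  have cS₀ : ∀ z : ℂ, ‖z‖ < 2 → ContDiffAt ℝ ∞ S₀ z := fun z hz =>
    ((ch₀ z hz).neg.cexp).smul hσ₀.contDiffAt
  have cS₁ : ∀ z : ℂ, ‖z‖ < 2 → ContDiffAt ℝ ∞ S₁ z := fun z hz =>
    ((ch₁ z hz).cexp).smul hσ₁.contDiffAt
  have dS₀ : ∀ z : ℂ, ‖z‖ < 2 → Λ.L₀.D S₀ z = 0 := by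
    intro z hz
    have e1 : DifferentiableAt ℂ (fun x => -h₀ x) z := (hh₀.differentiableAt (hball z hz)).neg
    have e2 : DifferentiableAt ℝ (fun x => -h₀ x) z := e1.restrictScalars ℝ
    rw [hS₀, Λ.L₀.D_smul (u := fun x => Complex.exp (-h₀ x)) e2.cexp
      (hσ₀.differentiable (by simp) z) (hfix₀ z), (hF₀ z (hmem z hz)).2, db_cexp e2,
      db_of_differentiableAt e1]
    simp
  have dS₁ : ∀ z : ℂ, ‖z‖ < 2 → Λ.L₁.D S₁ z = 0 := by
    intro z hz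
    have e1 : DifferentiableAt ℂ (fun x => h₁ x) z := hh₁.differentiableAt (hball z hz)
    have e2 : DifferentiableAt ℝ (fun x => h₁ x) z := e1.restrictScalars ℝ
    rw [hS₁, Λ.L₁.D_smul (u := fun x => Complex.exp (h₁ x)) e2.cexp
      (hσ₁.differentiable (by simp) z) (hfix₁ z), (hF₁ z (hmem z hz)).2, db_cexp e2,
      db_of_differentiableAt e1]
    simp
  have hrel : ∀ z ∈ A, S₀ z = z ^ m • S₁ z⁻¹ := by
    intro z hz
    simp only [hS₀, hS₁]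
    rw [hσ z hz, hgm z hz, hsplit z hz, smul_smul, smul_smul]
    congr 1
    rw [Complex.exp_add, Complex.exp_neg]
    have := Complex.exp_ne_zero (h₀ z)
    field_simp
  have hrel' : ∀ w ∈ A, S₁ w = w ^ m • S₀ w⁻¹ := by
    intro w hw
    have h1 := hrel w⁻¹ (norm_inv_mem hw)
    rw [inv_inv] at h1
    rw [h1, smul_smul, ← mul_zpow, mul_inv_cancel₀ (hA0 w hw), one_zpow, one_smul]
  -- the global frames
  set s₀ : ℂ → E := fun z => if ‖z‖ ≤ 1 then S₀ z else z ^ m • S₁ z⁻¹ with hs₀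
  set s₁ : ℂ → E := fun w => if ‖w‖ ≤ 1 then S₁ w else w ^ m • S₀ w⁻¹ with hs₁
  have s₀_in : ∀ z : ℂ, ‖z‖ < 2 → s₀ =ᶠ[𝓝 z] S₀ := by
    intro z hz
    filter_upwards [(isOpen_lt continuous_norm continuous_const).mem_nhds hz] with y hy
    simp only [hs₀]
    split_ifs with h1
    · rfl
    · exact (hrel y ⟨by linarith [not_le.1 h1], hy⟩).symm
  have s₀_out : ∀ z : ℂ, 1 / 2 < ‖z‖ → s₀ =ᶠ[𝓝 z] fun z => z ^ m • S₁ z⁻¹ := by
    intro z hz
    filter_upwards [(isOpen_lt continuous_const continuous_norm).mem_nhds hz] with y hy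
    simp only [hs₀]
    split_ifs with h1
    · exact hrel y ⟨hy, by linarith⟩
    · rfl
  have s₁_in : ∀ z : ℂ, ‖z‖ < 2 → s₁ =ᶠ[𝓝 z] S₁ := by
    intro z hz
    filter_upwards [(isOpen_lt continuous_norm continuous_const).mem_nhds hz] with y hy
    simp only [hs₁]
    split_ifs with h1
    · rfl
    · exact (hrel' y ⟨by linarith [not_le.1 h1], hy⟩).symm
  have s₁_out : ∀ z : ℂ, 1 / 2 < ‖z‖ → s₁ =ᶠ[𝓝 z] fun z => z ^ m • S₀ z⁻¹ := by
    intro z hz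
    filter_upwards [(isOpen_lt continuous_const continuous_norm).mem_nhds hz] with y hy
    simp only [hs₁]
    split_ifs with h1
    · exact hrel' y ⟨hy, by linarith⟩
    · rfl
  have hnorm_inv : ∀ z : ℂ, ¬ ‖z‖ < 2 → ‖z⁻¹‖ < 2 := by
    intro z hz
    have hz2 := not_lt.1 hz
    rw [norm_inv]
    have : ‖z‖⁻¹ ≤ 2⁻¹ := inv_anti₀ (by norm_num) hz2
    linarith
  have hne_big : ∀ z : ℂ, ¬ ‖z‖ < 2 → z ≠ 0 := by
    rintro z hz rfl
    simp at hz
  have hdzpow : ∀ z : ℂ, z ≠ 0 → DifferentiableAt ℂ (fun z : ℂ => z ^ m) z := fun z hz =>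
    differentiableAt_zpow.2 (Or.inl hz)
  have hglue' : ∀ z, z ≠ 0 → Λ.L₁.T z = Λ.L₀.T z⁻¹ := Λ.swap.glue_T
  have hzpow : ∀ z : ℂ, z ≠ 0 → ContDiffAt ℝ ∞ (fun z : ℂ => z ^ m) z := by
    intro z hz
    have : AnalyticAt ℂ (fun z : ℂ => z ^ m) z := by
      have h1 : DifferentiableOn ℂ (fun z : ℂ => z ^ m) {0}ᶜ := fun y hy =>
        (hdzpow y hy).differentiableWithinAt
      exact h1.analyticAt (isOpen_compl_singleton.mem_nhds hz)
    exact this.contDiffAt.restrict_scalars ℝ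
  have hout : ∀ (L L' : LC E) (S : ℂ → E) (hT : ∀ z, z ≠ 0 → L.T z = L'.T z⁻¹)
      (hD : ∀ {s : ℂ → E} {z : ℂ}, z ≠ 0 → DifferentiableAt ℝ s z⁻¹ →
        L.D (fun z => s z⁻¹) z = conj (-(z ^ 2)⁻¹) • L'.D s z⁻¹)
      (hSc : ∀ z : ℂ, ‖z‖ < 2 → ContDiffAt ℝ ∞ S z) (hSf : ∀ z, L'.T z (S z) = S z)
      (hSD : ∀ z : ℂ, ‖z‖ < 2 → L'.D S z = 0) (z : ℂ), ¬ ‖z‖ < 2 →
      ContDiffAt ℝ ∞ (fun z => z ^ m • S z⁻¹) z ∧ L.D (fun z => z ^ m • S z⁻¹) z = 0 := by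
    intro L L' S hT hD hSc hSf hSD z hz
    have hz0 := hne_big z hz
    have hzi := hnorm_inv z hz
    have c1 : ContDiffAt ℝ ∞ (fun z => S z⁻¹) z := (hSc _ hzi).comp z (hinvs z hz0)
    refine ⟨(hzpow z hz0).smul c1, ?_⟩
    rw [L.D_smul (u := fun z => z ^ m) ((hzpow z hz0).differentiableAt (by simp))
      (c1.differentiableAt (by simp)) (by rw [hT z hz0]; exact hSf _),
      hD hz0 ((hSc _ hzi).differentiableAt (by simp)), hSD _ hzi,
      db_of_differentiableAt (hdzpow z hz0)]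
    simp
  have hS₀f : ∀ z, Λ.L₀.T z (S₀ z) = S₀ z := fun z => by
    simp only [hS₀]; rw [map_smul, hfix₀]
  have hS₁f : ∀ z, Λ.L₁.T z (S₁ z) = S₁ z := fun z => by
    simp only [hS₁]; rw [map_smul, hfix₁]
  have o₀ := hout Λ.L₀ Λ.L₁ S₁ Λ.glue_T (fun hz hs => Λ.D_comp_inv hz hs) cS₁ hS₁f dS₁
  have o₁ := hout Λ.L₁ Λ.L₀ S₀ Λ.swap.glue_T (fun hz hs => Λ.swap.D_comp_inv hz hs) cS₀ hS₀f dS₀
  refine ⟨-m, s₀, s₁, ⟨⟨?_, ?_⟩, ⟨?_, ?_⟩, ?_, ?_, ?_, ?_, ?_⟩⟩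
  · rw [contDiff_iff_contDiffAt]
    intro z
    by_cases hz : ‖z‖ < 2
    · exact (cS₀ z hz).congr_of_eventuallyEq (s₀_in z hz)
    · exact ((o₀ z hz).1).congr_of_eventuallyEq (s₀_out z (by linarith [not_lt.1 hz]))
  · intro z
    simp only [hs₀]
    split_ifs with h1
    · exact hS₀f z
    · have hz0 : z ≠ 0 := by
        rintro rfl
        simp at h1
      rw [map_smul, Λ.glue_T z hz0, hS₁f]
  · rw [contDiff_iff_contDiffAt]
    intro z
    by_cases hz : ‖z‖ < 2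
    · exact (cS₁ z hz).congr_of_eventuallyEq (s₁_in z hz)
    · exact ((o₁ z hz).1).congr_of_eventuallyEq (s₁_out z (by linarith [not_lt.1 hz]))
  · intro z
    simp only [hs₁]
    split_ifs with h1
    · exact hS₁f z
    · have hz0 : z ≠ 0 := by
        rintro rfl
        simp at h1
      rw [map_smul, hglue' z hz0, hS₀f]
  · intro z
    simp only [hs₀]
    split_ifs with h1
    · exact smul_ne_zero (Complex.exp_ne_zero _) (hF₀ z (hmem z (by linarith))).1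
    · have hz0 : z ≠ 0 := by
        rintro rfl
        simp at h1
      refine smul_ne_zero (zpow_ne_zero _ hz0) (smul_ne_zero (Complex.exp_ne_zero _)
        (hF₁ _ (hmem _ ?_)).1)
      rw [norm_inv]
      have := inv_le_one_of_one_le₀ (not_le.1 h1).le
      linarith
  · intro z
    simp only [hs₁]
    split_ifs with h1
    · exact smul_ne_zero (Complex.exp_ne_zero _) (hF₁ z (hmem z (by linarith))).1
    · have hz0 : z ≠ 0 := by
        rintro rfl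
        simp at h1
      refine smul_ne_zero (zpow_ne_zero _ hz0) (smul_ne_zero (Complex.exp_ne_zero _)
        (hF₀ _ (hmem _ ?_)).1)
      rw [norm_inv]
      have := inv_le_one_of_one_le₀ (not_le.1 h1).le
      linarith
  · intro z
    by_cases hz : ‖z‖ < 2
    · rw [Λ.L₀.D_congr (s₀_in z hz)]
      exact dS₀ z hz
    · rw [Λ.L₀.D_congr (s₀_out z (by linarith [not_lt.1 hz]))]
      exact (o₀ z hz).2
  · intro z
    by_cases hz : ‖z‖ < 2
    · rw [Λ.L₁.D_congr (s₁_in z hz)]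
      exact dS₁ z hz
    · rw [Λ.L₁.D_congr (s₁_out z (by linarith [not_lt.1 hz]))]
      exact (o₁ z hz).2
  · intro z hz
    rw [neg_neg]
    have hn : 0 < ‖z‖ := norm_pos_iff.2 hz
    simp only [hs₀, hs₁]
    rcases lt_trichotomy ‖z‖ 1 with h1 | h1 | h1
    · have h2 : ¬ ‖z⁻¹‖ ≤ 1 := by
        rw [norm_inv, not_le]
        exact (one_lt_inv₀ hn).2 h1
      rw [if_pos h1.le, if_neg h2, inv_inv, smul_smul, ← mul_zpow, mul_inv_cancel₀ hz, one_zpow,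
        one_smul]
    · have h2 : ‖z⁻¹‖ ≤ 1 := by rw [norm_inv, h1, inv_one]
      rw [if_pos h1.le, if_pos h2]
      exact hrel z ⟨by rw [h1]; norm_num, by rw [h1]; norm_num⟩
    · have h2 : ‖z⁻¹‖ ≤ 1 := by
        rw [norm_inv]
        exact inv_le_one_of_one_le₀ h1.le
      rw [if_neg (not_le.2 h1), if_pos h2]

end

end Vale.Agent.P267.H205.P1
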