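import Vale.Agent.P267.H205.P1e

/-!
# P267, block G, package G-P1 (helper205): the `∂̄`-equation on `ℙ¹`, sections of `O(k)`
-/

open Filter Topology MeasureTheory Set Metric
open scoped ContDiff Real ComplexConjugate

namespace Vale.Agent.P267.H205.P1

noncomputable section

variable {E : Type*} [NormedAddCommGroup E] [InnerProductSpace ℂ E]

/-! ### the `∂̄`-equation -/

/-- one half of the solution of the `∂̄`-equation: data supported in one coordinate plane -/
theorem solve_half {g : ℂ → ℂ} (hg : ContDiff ℝ ∞ g) (hg0 : ∀ z, 3 / 2 ≤ ‖z‖ → g z = 0) (n : ℕ) :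
    ∃ u₀ u₁ : ℂ → ℂ, ContDiff ℝ ∞ u₀ ∧ ContDiff ℝ ∞ u₁ ∧ (∀ z, db u₀ z = g z) ∧
      (∀ w, w ≠ 0 → u₁ w = w ^ n * (w⁻¹ * u₀ w⁻¹)) ∧
      ∀ ε, (∀ z, ‖g z‖ ≤ ε) → (∀ z, ‖u₀ z‖ ≤ cauC (3 / 2) * ε) := by
  have hcs : HasCompactSupport g :=
    HasCompactSupport.intro (isCompact_closedBall (0 : ℂ) 2) fun z hz =>
      hg0 z (by have : 2 < ‖z‖ := by simpa using hz
                linarith)
  obtain ⟨v, hv, -, hvz⟩ := exists_cau_inf hg hcs
  refine ⟨cau g, fun w => w ^ n * v w, contDiff_cau hg hcs,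
    ((contDiff_id.pow n).mul hv), db_cau hg hcs, fun w hw => ?_, fun ε hε z => ?_⟩
  · simp only
    rw [hvz w hw]
  · exact norm_cau_le hg0 hε z

/-- the solution of the `∂̄`-equation with values in `O(k)`, `k ≥ -1`, in terms of coefficients
with respect to frames; `n = k + 1` -/
theorem solve_scalar (n : ℕ) {g₀ g₁ : ℂ → ℂ} (hg₀ : ContDiff ℝ ∞ g₀) (hg₁ : ContDiff ℝ ∞ g₁)
    (hglue : ∀ z, z ≠ 0 → g₀ z = conj (-(z ^ 2)⁻¹) * (z ^ ((n : ℤ) - 1) * g₁ z⁻¹)) :
    ∃ u₀ u₁ : ℂ → ℂ, ContDiff ℝ ∞ u₀ ∧ ContDiff ℝ ∞ u₁ ∧ (∀ z, db u₀ z = g₀ z) ∧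
      (∀ z, db u₁ z = g₁ z) ∧ (∀ z, z ≠ 0 → u₀ z = z ^ ((n : ℤ) - 1) * u₁ z⁻¹) ∧
      (n = 1 → ∀ ε, 0 ≤ ε → (∀ z, ‖z‖ ≤ 3 / 2 → ‖g₀ z‖ ≤ ε ∧ ‖g₁ z‖ ≤ ε) →
        ∀ z, ‖u₀ z‖ ≤ 2 * cauC (3 / 2) * ε ∧ ‖u₁ z‖ ≤ 2 * cauC (3 / 2) * ε) := by
  -- the two halves
  set a : ℂ → ℂ := fun z => chi z * g₀ z with ha
  have hac : ContDiff ℝ ∞ a := chi_contDiff.mul hg₀
  have ha0 : ∀ z, 3 / 2 ≤ ‖z‖ → a z = 0 := fun z hz => by simp [ha, chi_zero hz]
  -- the second cut-off, in the coordinate `w`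
  set b : ℂ → ℂ := fun w => if w = 0 then g₁ w else (1 - chi w⁻¹) * g₁ w with hb
  have hbin : ∀ w : ℂ, ‖w‖ < 2 / 3 → b =ᶠ[𝓝 w] g₁ := by
    intro w hw
    filter_upwards [(isOpen_lt continuous_norm continuous_const).mem_nhds hw] with y hy
    simp only [hb]
    split_ifs with h0
    · rfl
    · have hn : 0 < ‖y‖ := norm_pos_iff.2 h0
      have h4 : 3 / 2 ≤ ‖y⁻¹‖ := by
        rw [norm_inv, le_inv_comm₀ (by norm_num) hn]
        have : ‖y‖ < 2 / 3 := hy
        norm_num
        exact this.le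
      rw [chi_zero h4]
      ring
  have hbout : ∀ w : ℂ, w ≠ 0 → b =ᶠ[𝓝 w] fun w => (1 - chi w⁻¹) * g₁ w := by
    intro w hw
    filter_upwards [isOpen_ne.mem_nhds hw] with y hy
    simp only [hb]
    rw [if_neg hy]
  have hbc : ContDiff ℝ ∞ b := by
    rw [contDiff_iff_contDiffAt]
    intro w
    by_cases hw : w = 0
    · exact (hg₁.contDiffAt).congr_of_eventuallyEq (hbin w (by rw [hw]; norm_num))
    · refine ContDiffAt.congr_of_eventuallyEq ?_ (hbout w hw)
      have : ContDiffAt ℝ ∞ (fun w : ℂ => w⁻¹) w := contDiffAt_inv ℝ hw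
      exact ((contDiffAt_const).sub ((chi_contDiff.contDiffAt).comp w this)).mul hg₁.contDiffAt
  have hb0 : ∀ w, 3 / 2 ≤ ‖w‖ → b w = 0 := by
    intro w hw
    have hw0 : w ≠ 0 := by
      rintro rfl
      simp at hw
      norm_num at hw
    simp only [hb]
    rw [if_neg hw0, chi_one]
    · ring
    · rw [norm_inv]
      have := inv_anti₀ (by norm_num) hw
      norm_num at this
      linarith
  obtain ⟨p₀, p₁, hp₀, hp₁, hpd, hpg, hpb⟩ := solve_half hac ha0 n
  obtain ⟨q₁, q₀, hq₁, hq₀, hqd, hqg, hqb⟩ := solve_half hbc hb0 n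
  have hpg' : ∀ z, z ≠ 0 → p₀ z = z ^ ((n : ℤ) - 1) * p₁ z⁻¹ := by
    intro z hz
    rw [hpg z⁻¹ (inv_ne_zero hz), inv_inv, zpow_sub₀ hz, zpow_natCast, zpow_one, inv_pow]
    field_simp
  have hqg' : ∀ z, z ≠ 0 → q₀ z = z ^ ((n : ℤ) - 1) * q₁ z⁻¹ := by
    intro z hz
    rw [hqg z hz, zpow_sub₀ hz, zpow_natCast, zpow_one]
    field_simp
  have hdz : ∀ z : ℂ, z ≠ 0 → DifferentiableAt ℂ (fun z : ℂ => z ^ ((n : ℤ) - 1)) z := fun z hz =>
    differentiableAt_zpow.2 (Or.inl hz)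
  -- general transformation rule
  have htr : ∀ {u v : ℂ → ℂ}, ContDiff ℝ ∞ v →
      (∀ z, z ≠ 0 → u z = z ^ ((n : ℤ) - 1) * v z⁻¹) → ∀ z, z ≠ 0 →
        db u z = conj (-(z ^ 2)⁻¹) * (z ^ ((n : ℤ) - 1) * db v z⁻¹) := by
    intro u v hv huv z hz
    have hev : u =ᶠ[𝓝 z] fun z => z ^ ((n : ℤ) - 1) * v z⁻¹ := by
      filter_upwards [isOpen_ne.mem_nhds hz] with y hy
      exact huv y hy
    have hvd : DifferentiableAt ℝ v z⁻¹ := hv.differentiable (by simp) _
    have hinv : DifferentiableAt ℝ (fun z : ℂ => z⁻¹) z := (differentiableAt_inv' hz).restrictScalars ℝ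
    have hcomp : DifferentiableAt ℝ (fun z : ℂ => v z⁻¹) z :=
      DifferentiableAt.comp (g := v) (f := fun z : ℂ => z⁻¹) z hvd hinv
    rw [db_congr hev, db_mul ((hdz z hz).restrictScalars ℝ) hcomp,
      db_of_differentiableAt (hdz z hz), zero_mul, add_zero,
      db_comp (g := fun z : ℂ => z⁻¹) hvd (differentiableAt_inv' hz), deriv_inv_fun, smul_eq_mul]
    ring
  -- continuity: both sides agree off `0`, hence everywhere
  have hcl : ∀ {u v : ℂ → ℂ}, Continuous u → Continuous v → (∀ z, z ≠ 0 → u z = v z) →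
      ∀ z, u z = v z := by
    intro u v hu hv h z
    by_cases hz : z = 0
    · subst hz
      have hd : Dense ({0}ᶜ : Set ℂ) := dense_compl_singleton 0
      exact congrFun (hu.ext_on hd hv fun y hy => h y hy) 0
    · exact h z hz
  have hb' : ∀ z, z ≠ 0 → b z⁻¹ = (1 - chi z) * g₁ z⁻¹ := by
    intro z hz
    simp only [hb]
    rw [if_neg (inv_ne_zero hz), inv_inv]
  refine ⟨fun z => p₀ z + q₀ z, fun z => p₁ z + q₁ z, hp₀.add hq₀, hp₁.add hq₁, ?_, ?_, ?_, ?_⟩
  · refine hcl (contDiff_db (hp₀.add hq₀)).continuous hg₀.continuous fun z hz => ?_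
    rw [db_add (hp₀.differentiable (by simp) z) (hq₀.differentiable (by simp) z), hpd,
      htr hq₁ hqg' z hz, hqd, hb' z hz, hglue z hz]
    simp only [ha]
    rw [hglue z hz]
    ring
  · refine hcl (contDiff_db (hp₁.add hq₁)).continuous hg₁.continuous fun w hw => ?_
    have hw' := inv_ne_zero hw
    rw [db_add (hp₁.differentiable (by simp) w) (hq₁.differentiable (by simp) w), hqd]
    have h1 := htr hp₁ hpg' w⁻¹ hw'
    rw [inv_inv, hpd] at h1
    have h2 := hglue w⁻¹ hw'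
    rw [inv_inv] at h2
    have hc0 : conj (-((w⁻¹) ^ 2)⁻¹) ≠ 0 := by
      rw [Ne, map_eq_zero, neg_eq_zero, inv_eq_zero]
      exact pow_ne_zero _ hw'
    have hz0 : (w⁻¹ : ℂ) ^ ((n : ℤ) - 1) ≠ 0 := zpow_ne_zero _ hw'
    have h3 : db p₁ w = chi w⁻¹ * g₁ w := by
      have h4 : conj (-((w⁻¹) ^ 2)⁻¹) * ((w⁻¹) ^ ((n : ℤ) - 1) * db p₁ w) =
          conj (-((w⁻¹) ^ 2)⁻¹) * ((w⁻¹) ^ ((n : ℤ) - 1) * (chi w⁻¹ * g₁ w)) := by
        rw [← h1]
        simp only [ha]
        rw [h2]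
        ring
      exact mul_left_cancel₀ hz0 (mul_left_cancel₀ hc0 h4)
    rw [h3]
    simp only [hb]
    rw [if_neg hw]
    ring
  · intro z hz
    simp only
    rw [hpg' z hz, hqg' z hz]
    ring
  · intro hn ε hε hbd
    subst hn
    have hap : ∀ z, ‖a z‖ ≤ ε := by
      intro z
      by_cases hz : ‖z‖ ≤ 3 / 2
      · simp only [ha, norm_mul]
        have h1 := norm_chi_le z
        have h2 := (hbd z hz).1
        have h3 := norm_nonneg (g₀ z)
        have h4 := norm_nonneg (chi z)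
        nlinarith
      · rw [ha0 z (le_of_lt (not_le.1 hz)), norm_zero]
        exact hε
    have hbp : ∀ w, ‖b w‖ ≤ ε := by
      intro w
      by_cases hw : ‖w‖ ≤ 3 / 2
      · simp only [hb]
        split_ifs with h0
        · exact (hbd w hw).2
        · rw [norm_mul]
          have h1 := norm_one_sub_chi_le w⁻¹
          have h2 := (hbd w hw).2
          have h3 := norm_nonneg (g₁ w)
          have h4 := norm_nonneg (1 - chi w⁻¹)
          nlinarith
      · rw [hb0 w (le_of_lt (not_le.1 hw)), norm_zero]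
        exact hε
    have hp := hpb ε hap
    have hq := hqb ε hbp
    have hall : ∀ {u : ℂ → ℂ} {C : ℝ}, Continuous u → (∀ z, z ≠ 0 → ‖u z‖ ≤ C) → ∀ z, ‖u z‖ ≤ C := by
      intro u C hu h z
      have hcl2 : IsClosed {z | ‖u z‖ ≤ C} := isClosed_le hu.norm continuous_const
      have hd : Dense ({0}ᶜ : Set ℂ) := dense_compl_singleton 0
      have hsub : closure ({0}ᶜ : Set ℂ) ⊆ {z | ‖u z‖ ≤ C} :=
        hcl2.closure_subset_iff.2 fun y hy => h y hy
      exact hsub (hd z)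
    intro z
    constructor
    · refine hall (hp₀.add hq₀).continuous (fun y hy => ?_) z
      refine (norm_add_le _ _).trans ?_
      have h1 := hqg' y hy
      simp only [Nat.cast_one, sub_self, zpow_zero, one_mul] at h1
      rw [h1]
      linarith [hp y, hq y⁻¹]
    · refine hall (hp₁.add hq₁).continuous (fun y hy => ?_) z
      refine (norm_add_le _ _).trans ?_
      have h1 := hpg' y⁻¹ (inv_ne_zero hy)
      simp only [Nat.cast_one, sub_self, zpow_zero, one_mul, inv_inv] at h1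
      rw [← h1]
      linarith [hp y⁻¹, hq y]

/-! ### sections -/

/-- a holomorphic section over `ℙ¹` -/
structure HolSec (Λ : LP1 E) (t₀ t₁ : ℂ → E) : Prop where
  sec₀ : Λ.L₀.IsSec t₀
  sec₁ : Λ.L₁.IsSec t₁
  hol₀ : ∀ z, Λ.L₀.D t₀ z = 0
  hol₁ : ∀ z, Λ.L₁.D t₁ z = 0
  glue : ∀ z, z ≠ 0 → t₀ z = t₁ z⁻¹

/-- entire functions with a pole of order less than `n` at infinity are polynomials -/
theorem exists_poly (n : ℕ) : ∀ {g q : ℂ → ℂ}, Differentiable ℂ g → Differentiable ℂ q →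
    (∀ z, z ≠ 0 → g z = z ^ ((n : ℤ) - 1) * q z⁻¹) →
    ∃ p : Polynomial ℂ, p.degree < n ∧ ∀ z, g z = p.eval z := by
  induction n with
  | zero =>
    intro g q hg hq h
    refine ⟨0, by simp, fun z => ?_⟩
    have hlim : Tendsto g (cocompact ℂ) (𝓝 0) := by
      have h1 : Tendsto (fun z : ℂ => z⁻¹) (cocompact ℂ) (𝓝 0) := by
        rw [← cobounded_eq_cocompact]
        exact tendsto_inv₀_cobounded
      have h2 : Tendsto (fun z : ℂ => q z⁻¹) (cocompact ℂ) (𝓝 (q 0)) :=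
        (hq.continuous.tendsto 0).comp h1
      have h3 := h1.mul h2
      rw [zero_mul] at h3
      refine h3.congr' ?_
      have h4 : ∀ᶠ z : ℂ in cocompact ℂ, z ≠ 0 := by
        have := (isCompact_singleton (x := (0 : ℂ))).compl_mem_cocompact
        filter_upwards [this] with y hy
        exact hy
      filter_upwards [h4] with y hy
      rw [h y hy]
      simp
    have := hg.apply_eq_of_tendsto_cocompact z hlim
    simpa using this
  | succ n ih =>
    intro g q hg hq h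
    have hg1 : Differentiable ℂ (dslope g 0) := by
      intro z
      by_cases hz : z = 0
      · subst hz
        have h1 : DifferentiableOn ℂ (dslope g 0) univ :=
          (Complex.differentiableOn_dslope (univ_mem)).2 hg.differentiableOn
        exact h1.differentiableAt univ_mem
      · exact (differentiableAt_dslope_of_ne hz).2 (hg z)
    have hq1 : Differentiable ℂ fun w => q w - g 0 * w ^ n :=
      hq.sub ((differentiable_const _).mul (differentiable_id.pow n))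
    obtain ⟨p, hp, hpe⟩ := ih hg1 hq1 (fun z hz => by
      rw [dslope_of_ne _ hz, slope_def_field, sub_zero, h z hz, zpow_sub₀ hz, zpow_sub₀ hz,
        zpow_natCast, zpow_natCast, zpow_one, inv_pow, pow_succ]
      field_simp)
    refine ⟨Polynomial.C (g 0) + Polynomial.X * p, ?_, fun z => ?_⟩
    · refine (Polynomial.degree_add_le _ _).trans_lt (max_lt ?_ ?_)
      · refine Polynomial.degree_C_le.trans_lt ?_
        exact_mod_cast Nat.succ_pos n
      · rcases eq_or_ne p 0 with rfl | hp0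
        · simp
        · rw [Polynomial.degree_mul, Polynomial.degree_X]
          rw [Polynomial.degree_eq_natDegree hp0] at hp ⊢
          have : p.natDegree < n := by exact_mod_cast hp
          have h2 : 1 + p.natDegree < n + 1 := by omega
          exact_mod_cast h2
    · rw [Polynomial.eval_add, Polynomial.eval_C, Polynomial.eval_mul, Polynomial.eval_X, ← hpe]
      rcases eq_or_ne z 0 with rfl | hz
      · simp
      · rw [dslope_of_ne _ hz, slope_def_field]
        field_simp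
        ring

end

end Vale.Agent.P267.H205.P1
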