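import Vale.Agent.P267.H205.P1f

/-!
# P267, block G, package G-P1 (helper205): the degree of a line bundle on `ℙ¹`
-/

open Filter Topology MeasureTheory Set Metric
open scoped ContDiff Real ComplexConjugate

namespace Vale.Agent.P267.H205.P1

noncomputable section

variable {E : Type*} [NormedAddCommGroup E] [InnerProductSpace ℂ E]

variable {Λ : LP1 E} {k : ℤ} {s₀ s₁ t₀ t₁ : ℂ → E}

/-- a meromorphic section with divisor supported at infinity, in terms of frames -/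
theorem Frames.exists_coeff (h : Frames Λ k s₀ s₁) {m : ℤ}
    (ht₀ : Λ.L₀.IsSec t₀) (ht₁ : Λ.L₁.IsSec t₁) (hD₀ : ∀ z, Λ.L₀.D t₀ z = 0)
    (hD₁ : ∀ z, Λ.L₁.D t₁ z = 0) (hglue : ∀ z, z ≠ 0 → t₀ z = z ^ (-m) • t₁ z⁻¹) :
    ∃ g q : ℂ → ℂ, Differentiable ℂ g ∧ Differentiable ℂ q ∧ (∀ z, t₀ z = g z • s₀ z) ∧
      (∀ z, t₁ z = q z • s₁ z) ∧ ∀ z, z ≠ 0 → g z = z ^ (k - m) * q z⁻¹ := by
  obtain ⟨g, hg, hgs⟩ := Λ.L₀.exists_quot isOpen_univ ht₀.1.contDiffOn h.sec₀.1.contDiffOn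
    (fun z _ => ht₀.2 z) (fun z _ => h.sec₀.2 z) (fun z _ => h.ne₀ z) (fun z _ => hD₀ z)
    (fun z _ => h.hol₀ z)
  obtain ⟨q, hq, hqs⟩ := Λ.L₁.exists_quot isOpen_univ ht₁.1.contDiffOn h.sec₁.1.contDiffOn
    (fun z _ => ht₁.2 z) (fun z _ => h.sec₁.2 z) (fun z _ => h.ne₁ z) (fun z _ => hD₁ z)
    (fun z _ => h.hol₁ z)
  refine ⟨g, q, differentiableOn_univ.1 hg, differentiableOn_univ.1 hq, fun z => hgs z trivial,
    fun z => hqs z trivial, fun z hz => ?_⟩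
  have h1 : g z • s₀ z = (z ^ (k - m) * q z⁻¹) • s₀ z := by
    rw [← hgs z trivial, hglue z hz, hqs z⁻¹ trivial, h.glue z hz, smul_smul, smul_smul]
    congr 1
    rw [sub_eq_add_neg, zpow_add₀ hz]
    have : z ^ k * z ^ (-k) = 1 := by rw [← zpow_add₀ hz]; simp
    linear_combination (-(z ^ (-m) * q z⁻¹)) * this
  exact smul_left_injective ℂ (h.ne₀ z) h1

/-- sections of a bundle of degree `k` are given by polynomials of degree at most `k` -/
theorem Frames.exists_poly (h : Frames Λ k s₀ s₁) (ht : HolSec Λ t₀ t₁) :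
    ∃ (p : Polynomial ℂ) (q : ℂ → ℂ), (p = 0 ∨ (p.natDegree : ℤ) ≤ k) ∧ Differentiable ℂ q ∧
      (∀ z, t₀ z = p.eval z • s₀ z) ∧
      (∀ w, t₁ w = q w • s₁ w) ∧ ∀ z, z ≠ 0 → p.eval z = z ^ k * q z⁻¹ := by
  obtain ⟨g, q, hg, hq, hgs, hqs, hgq⟩ := h.exists_coeff (m := 0) ht.sec₀ ht.sec₁ ht.hol₀ ht.hol₁
    (fun z hz => by rw [ht.glue z hz]; simp)
  rw [sub_zero] at hgq
  by_cases hk : 0 ≤ k
  · obtain ⟨n, rfl⟩ := Int.eq_ofNat_of_zero_le hk
    obtain ⟨p, hp, hpe⟩ := P1.exists_poly (n + 1) hg hq (fun z hz => by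
      rw [hgq z hz]
      congr 2
      push_cast
      ring)
    refine ⟨p, q, ?_, hq, fun z => by rw [← hpe]; exact hgs z, hqs, fun z hz => by
      rw [← hpe]; exact hgq z hz⟩
    by_cases hp0 : p = 0
    · exact Or.inl hp0
    · right
      rw [Polynomial.degree_eq_natDegree hp0] at hp
      have : p.natDegree < n + 1 := by exact_mod_cast hp
      have h2 : p.natDegree ≤ n := by omega
      exact_mod_cast h2
  · obtain ⟨n, hn⟩ := Int.eq_ofNat_of_zero_le (show 0 ≤ -k - 1 by omega)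
    have hq' : Differentiable ℂ fun w => w ^ n * q w := (differentiable_id.pow n).mul hq
    obtain ⟨p, hp, hpe⟩ := P1.exists_poly 0 hg hq' (fun z hz => by
      rw [hgq z hz, show k = -1 - (n : ℤ) by omega, zpow_sub₀ hz]
      simp only [CharP.cast_eq_zero, zero_sub, zpow_natCast, inv_pow]
      field_simp)
    have hp0 : p = 0 := by
      by_contra h0
      rw [Polynomial.degree_eq_natDegree h0] at hp
      exact Nat.not_lt_zero _ (by exact_mod_cast hp)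
    exact ⟨p, q, Or.inl hp0, hq, fun z => by rw [← hpe]; exact hgs z, hqs, fun z hz => by
      rw [← hpe]; exact hgq z hz⟩

/-- a bundle of negative degree has no sections -/
theorem Frames.eq_zero_of_neg (h : Frames Λ k s₀ s₁) (hk : k < 0) (ht : HolSec Λ t₀ t₁) :
    (∀ z, t₀ z = 0) ∧ ∀ z, t₁ z = 0 := by
  obtain ⟨p, q, hp, hq, hpt, hqt, hpq⟩ := h.exists_poly ht
  have hp0 : p = 0 := by
    rcases hp with hp | hp
    · exact hp
    · omega
  subst hp0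
  have h0 : ∀ z, t₀ z = 0 := fun z => by rw [hpt z]; simp
  refine ⟨h0, fun z => ?_⟩
  have hq0 : ∀ w, w ≠ 0 → q w = 0 := by
    intro w hw
    have h1 := hpq w⁻¹ (inv_ne_zero hw)
    rw [inv_inv, Polynomial.eval_zero] at h1
    exact (mul_eq_zero.1 h1.symm).resolve_left (zpow_ne_zero _ (inv_ne_zero hw))
  have hq00 : q = fun _ => 0 :=
    hq.continuous.ext_on (dense_compl_singleton 0) continuous_const fun w hw => hq0 w hw
  rw [hqt z, hq00]
  simp

/-- the general form of a section, with its order at infinity -/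
theorem Frames.exists_poly' (h : Frames Λ k s₀ s₁) (ht : HolSec Λ t₀ t₁)
    (hne : ∃ z, t₀ z ≠ 0) :
    ∃ p : Polynomial ℂ, p ≠ 0 ∧ ∃ n : ℕ, (p.natDegree : ℤ) + n = k ∧ (∀ z, t₀ z = p.eval z • s₀ z) ∧
      ∀ w, t₁ w = (w ^ n * p.reverse.eval w) • s₁ w := by
  obtain ⟨p, q, hp, hq, hpt, hqt, hpq⟩ := h.exists_poly ht
  have hp0 : p ≠ 0 := by
    rintro rfl
    obtain ⟨z, hz⟩ := hne
    exact hz (by rw [hpt z]; simp)
  have hpk := hp.resolve_left hp0
  obtain ⟨n, hn⟩ := Int.eq_ofNat_of_zero_le (show 0 ≤ k - p.natDegree by omega)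
  refine ⟨p, hp0, n, by omega, hpt, fun w => ?_⟩
  have hqe : q = fun w => w ^ n * p.reverse.eval w := by
    refine hq.continuous.ext_on (dense_compl_singleton 0)
      ((continuous_id.pow n).mul p.reverse.continuous) fun w hw => ?_
    have hw0 : w ≠ 0 := hw
    have h1 := hpq w⁻¹ (inv_ne_zero hw0)
    rw [inv_inv] at h1
    have h2 : p.reverse.eval w = w ^ p.natDegree * p.eval w⁻¹ := by
      let _ : Invertible w⁻¹ := invertibleOfNonzero (inv_ne_zero hw0)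
      have h3 := Polynomial.eval₂_reverse_mul_pow (RingHom.id ℂ) w⁻¹ p
      rw [invOf_eq_inv, inv_inv] at h3
      change Polynomial.eval w p.reverse * w⁻¹ ^ p.natDegree = Polynomial.eval w⁻¹ p at h3
      rw [← h3, inv_pow, mul_comm (p.reverse.eval w), ← mul_assoc,
        mul_inv_cancel₀ (pow_ne_zero _ hw0), one_mul]
    rw [h2, h1, show k = (p.natDegree : ℤ) + n by omega, zpow_add₀ (inv_ne_zero hw0), zpow_natCast,
      zpow_natCast, inv_pow, inv_pow]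
    field_simp
  rw [hqt w, hqe]

/-- a section of a bundle of degree `0` is a constant multiple of the frame -/
theorem Frames.exists_const (h : Frames Λ 0 s₀ s₁) (ht : HolSec Λ t₀ t₁) :
    ∃ c : ℂ, (∀ z, t₀ z = c • s₀ z) ∧ ∀ z, t₁ z = c • s₁ z := by
  obtain ⟨g, q, hg, hq, hgs, hqs, hgq⟩ := h.exists_coeff (m := 0) ht.sec₀ ht.sec₁ ht.hol₀ ht.hol₁
    (fun z hz => by rw [ht.glue z hz]; simp)
  simp only [sub_self, zpow_zero, one_mul] at hgq
  obtain ⟨p, hp, hpe⟩ := P1.exists_poly 1 hg hq (fun z hz => by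
      rw [hgq z hz]
      simp)
  have hpc : p = Polynomial.C (p.coeff 0) := by
    refine Polynomial.eq_C_of_degree_le_zero ?_
    by_cases h0 : p = 0
    · rw [h0]; simp
    · rw [Polynomial.degree_eq_natDegree h0] at hp ⊢
      have : p.natDegree < 1 := by exact_mod_cast hp
      have h2 : p.natDegree = 0 := by omega
      rw [h2]; simp
  have hgc : ∀ z, g z = p.coeff 0 := fun z => by rw [hpe z, hpc]; simp
  have hqc : q = fun _ => p.coeff 0 := by
    refine hq.continuous.ext_on (dense_compl_singleton 0) continuous_const fun w hw => ?_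
    have hw0 : w ≠ 0 := hw
    have h1 := hgq w⁻¹ (inv_ne_zero hw0)
    rw [inv_inv, hgc] at h1
    exact h1.symm
  exact ⟨p.coeff 0, fun z => by rw [hgs z, hgc], fun z => by rw [hqs z, hqc]⟩

/-- a section over `ℙ¹` which vanishes on one coordinate plane vanishes -/
theorem HolSec.eq_zero (ht : HolSec Λ t₀ t₁) (h0 : ∀ z, t₀ z = 0) : ∀ z, t₁ z = 0 := by
  have h1 : t₁ = fun _ => 0 := by
    refine ht.sec₁.1.continuous.ext_on (dense_compl_singleton 0) continuous_const fun w hw => ?_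
    have hw0 : w ≠ 0 := hw
    have h2 := ht.glue w⁻¹ (inv_ne_zero hw0)
    rw [inv_inv, h0] at h2
    exact h2.symm
  intro z
  rw [h1]

/-- exchange of the coordinate planes -/
theorem Frames.swap (h : Frames Λ k s₀ s₁) : Frames Λ.swap k s₁ s₀ where
  sec₀ := h.sec₁
  sec₁ := h.sec₀
  ne₀ := h.ne₁
  ne₁ := h.ne₀
  hol₀ := h.hol₁
  hol₁ := h.hol₀
  glue z hz := by
    have h1 := h.glue z⁻¹ (inv_ne_zero hz)
    rw [inv_inv] at h1
    rw [h1, smul_smul, ← mul_zpow, mul_inv_cancel₀ hz, one_zpow, one_smul]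

theorem HolSec.swap (ht : HolSec Λ t₀ t₁) : HolSec Λ.swap t₁ t₀ where
  sec₀ := ht.sec₁
  sec₁ := ht.sec₀
  hol₀ := ht.hol₁
  hol₁ := ht.hol₀
  glue z hz := by
    have h1 := ht.glue z⁻¹ (inv_ne_zero hz)
    rw [inv_inv] at h1
    exact h1.symm

/-- the integer `k` is unique -/
theorem Frames.unique (h : Frames Λ k s₀ s₁) {m : ℤ} (h' : Frames Λ m t₀ t₁) : k = m := by
  have key : ∀ {k m : ℤ} {s₀ s₁ t₀ t₁ : ℂ → E}, Frames Λ k s₀ s₁ → Frames Λ m t₀ t₁ → ¬ k < m := by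
    intro k m s₀ s₁ t₀ t₁ h h' hkm
    obtain ⟨g, q, hg, hq, hgs, hqs, hgq⟩ := h.exists_coeff h'.sec₀ h'.sec₁ h'.hol₀ h'.hol₁ h'.glue
    obtain ⟨n, hn⟩ := Int.eq_ofNat_of_zero_le (show 0 ≤ m - k - 1 by omega)
    have hq' : Differentiable ℂ fun w => w ^ n * q w := (differentiable_id.pow n).mul hq
    obtain ⟨p, hp, hpe⟩ := P1.exists_poly 0 hg hq' (fun z hz => by
      rw [hgq z hz, show k - m = -1 - (n : ℤ) by omega, zpow_sub₀ hz]
      simp only [CharP.cast_eq_zero, zero_sub, zpow_natCast, inv_pow]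
      field_simp)
    have hp0 : p = 0 := by
      by_contra h0
      rw [Polynomial.degree_eq_natDegree h0] at hp
      exact Nat.not_lt_zero _ (by exact_mod_cast hp)
    refine h'.ne₀ 0 ?_
    rw [hgs 0, hpe 0, hp0]
    simp
  exact le_antisymm (not_lt.1 (key h' h)) (not_lt.1 (key h h'))

/-- the degree of a holomorphic line bundle on `ℙ¹` -/
def LP1.deg (Λ : LP1 E) : ℤ := Λ.exists_frames.choose

theorem LP1.exists_frames_deg (Λ : LP1 E) : ∃ s₀ s₁ : ℂ → E, Frames Λ Λ.deg s₀ s₁ :=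
  Λ.exists_frames.choose_spec

theorem Frames.deg_eq (h : Frames Λ k s₀ s₁) : Λ.deg = k := by
  obtain ⟨t₀, t₁, ht⟩ := Λ.exists_frames_deg
  exact ht.unique h

theorem LP1.deg_swap (Λ : LP1 E) : Λ.swap.deg = Λ.deg := by
  obtain ⟨s₀, s₁, hs⟩ := Λ.exists_frames_deg
  exact hs.swap.deg_eq

/-- the degree from a nowhere zero section with a pole or zero at infinity -/
theorem LP1.deg_eq_of_section (Λ : LP1 E) {m : ℤ} {c : ℂ} (hc : c ≠ 0) (ht₀ : Λ.L₀.IsSec t₀)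
    (ht₁ : Λ.L₁.IsSec t₁) (hn₀ : ∀ z, t₀ z ≠ 0) (hn₁ : ∀ z, t₁ z ≠ 0)
    (hD₀ : ∀ z, Λ.L₀.D t₀ z = 0) (hD₁ : ∀ z, Λ.L₁.D t₁ z = 0)
    (hglue : ∀ z, z ≠ 0 → t₀ z = (c * z ^ (-m)) • t₁ z⁻¹) : Λ.deg = m := by
  refine Frames.deg_eq (s₀ := t₀) (s₁ := fun w => c • t₁ w) ⟨ht₀, ⟨?_, ?_⟩, hn₀, ?_, hD₀, ?_, ?_⟩
  · exact contDiff_const.smul ht₁.1
  · intro z
    rw [map_smul, ht₁.2]
  · intro z
    exact smul_ne_zero hc (hn₁ z)
  · intro z
    rw [Λ.L₁.D_smul (u := fun _ => c) (differentiableAt_const _)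
      (ht₁.1.differentiable (by simp) z) (ht₁.2 z), hD₁, db_const]
    simp
  · intro z hz
    rw [hglue z hz, smul_smul]
    congr 1
    ring

/-- a bundle with a nonzero section has nonnegative degree -/
theorem HolSec.deg_nonneg (ht : HolSec Λ t₀ t₁) (hne : ∃ z, t₀ z ≠ 0) : 0 ≤ Λ.deg := by
  obtain ⟨s₀, s₁, hs⟩ := Λ.exists_frames_deg
  by_contra h
  obtain ⟨z, hz⟩ := hne
  exact hz ((hs.eq_zero_of_neg (not_le.1 h) ht).1 z)

/-- a nonzero section of a bundle of degree `0` has no zeros -/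
theorem HolSec.ne_zero_of_deg (ht : HolSec Λ t₀ t₁) (hne : ∃ z, t₀ z ≠ 0) (hk : Λ.deg = 0) :
    (∀ z, t₀ z ≠ 0) ∧ ∀ z, t₁ z ≠ 0 := by
  obtain ⟨s₀, s₁, hs⟩ := Λ.exists_frames_deg
  rw [hk] at hs
  obtain ⟨c, hc₀, hc₁⟩ := hs.exists_const ht
  have hc : c ≠ 0 := by
    rintro rfl
    obtain ⟨z, hz⟩ := hne
    exact hz (by rw [hc₀]; simp)
  exact ⟨fun z => by rw [hc₀ z]; exact smul_ne_zero hc (hs.ne₀ z),
    fun z => by rw [hc₁ z]; exact smul_ne_zero hc (hs.ne₁ z)⟩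

/-- a nonzero section without zeros: the degree is `0` -/
theorem HolSec.deg_eq_zero (ht : HolSec Λ t₀ t₁) (h₀ : ∀ z, t₀ z ≠ 0) (h₁ : ∀ z, t₁ z ≠ 0) :
    Λ.deg = 0 :=
  Λ.deg_eq_of_section one_ne_zero ht.sec₀ ht.sec₁ h₀ h₁ ht.hol₀ ht.hol₁ fun z hz => by
    rw [ht.glue z hz]; simp

/-- a section of a bundle of positive degree has a zero -/
theorem HolSec.exists_zero (ht : HolSec Λ t₀ t₁) (hk : Λ.deg ≠ 0) :
    (∃ z, t₀ z = 0) ∨ t₁ 0 = 0 := by
  by_contra h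
  push Not at h
  refine hk (ht.deg_eq_zero h.1 fun z => ?_)
  by_cases hz : z = 0
  · rw [hz]; exact h.2
  · have := ht.glue z⁻¹ (inv_ne_zero hz)
    rw [inv_inv] at this
    rw [← this]
    exact h.1 _

end

end Vale.Agent.P267.H205.P1
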