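import Vale.Agent.P267.H205.P1g

/-!
# P267, block G, package G-P1 (helper205): tensor products, duals, existence of sections, `H¹`
-/

open Filter Topology MeasureTheory Set Metric
open scoped ContDiff Real ComplexConjugate

namespace Vale.Agent.P267.H205.P1

noncomputable section

variable {E : Type*} [NormedAddCommGroup E] [InnerProductSpace ℂ E]
variable {E' : Type*} [NormedAddCommGroup E'] [InnerProductSpace ℂ E']
variable {E'' : Type*} [NormedAddCommGroup E''] [InnerProductSpace ℂ E'']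
variable {V : Type*} [NormedAddCommGroup V] [NormedSpace ℂ V]

theorem hasFDerivAt_bilin (B : E →L[ℂ] E' →L[ℂ] V) {s : ℂ → E} {t : ℂ → E'} {z : ℂ}
    (hs : DifferentiableAt ℝ s z) (ht : DifferentiableAt ℝ t z) (v : ℂ) :
    fderiv ℝ (fun z => B (s z) (t z)) z v = B (fderiv ℝ s z v) (t z) + B (s z) (fderiv ℝ t z v) := by
  have h := (B.bilinearRestrictScalars ℝ).hasFDerivAt_of_bilinear hs.hasFDerivAt ht.hasFDerivAt
  have h' : fderiv ℝ (fun z => B (s z) (t z)) z = _ := h.fderiv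
  rw [h']
  simp [add_comm]

theorem db_bilin (B : E →L[ℂ] E' →L[ℂ] V) {s : ℂ → E} {t : ℂ → E'} {z : ℂ}
    (hs : DifferentiableAt ℝ s z) (ht : DifferentiableAt ℝ t z) :
    db (fun z => B (s z) (t z)) z = B (db s z) (t z) + B (s z) (db t z) := by
  unfold db
  rw [hasFDerivAt_bilin B hs ht, hasFDerivAt_bilin B hs ht]
  simp only [map_smul, map_add, smul_apply, add_apply]
  module

theorem contDiff_bilin (B : E →L[ℂ] E' →L[ℂ] V) {s : ℂ → E} {t : ℂ → E'}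
    (hs : ContDiff ℝ ∞ s) (ht : ContDiff ℝ ∞ t) : ContDiff ℝ ∞ fun z => B (s z) (t z) := by
  have h := (B.bilinearRestrictScalars ℝ).isBoundedBilinearMap.contDiff (n := ∞)
  exact h.comp (hs.prodMk ht)

/-- the degree of a tensor product -/
theorem LP1.deg_bilin (Λ : LP1 E) (Λ' : LP1 E') (Λ'' : LP1 E'') (B : E →L[ℂ] E' →L[ℂ] E'')
    (hB : ∀ v w, v ≠ 0 → w ≠ 0 → B v w ≠ 0)
    (hT₀ : ∀ z v w, Λ''.L₀.T z (B v w) = B (Λ.L₀.T z v) (Λ'.L₀.T z w))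
    (hT₁ : ∀ z v w, Λ''.L₁.T z (B v w) = B (Λ.L₁.T z v) (Λ'.L₁.T z w))
    (ha₀ : ∀ z, Λ''.L₀.a z = Λ.L₀.a z + Λ'.L₀.a z)
    (ha₁ : ∀ z, Λ''.L₁.a z = Λ.L₁.a z + Λ'.L₁.a z) : Λ''.deg = Λ.deg + Λ'.deg := by
  obtain ⟨s₀, s₁, hs⟩ := Λ.exists_frames_deg
  obtain ⟨t₀, t₁, ht⟩ := Λ'.exists_frames_deg
  have key : ∀ (L : LC E) (L' : LC E') (L'' : LC E'') (s : ℂ → E) (t : ℂ → E'),
      (∀ z v w, L''.T z (B v w) = B (L.T z v) (L'.T z w)) → (∀ z, L''.a z = L.a z + L'.a z) →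
      L.IsSec s → L'.IsSec t → (∀ z, L.D s z = 0) → (∀ z, L'.D t z = 0) →
      L''.IsSec (fun z => B (s z) (t z)) ∧ ∀ z, L''.D (fun z => B (s z) (t z)) z = 0 := by
    intro L L' L'' s t hT ha hs ht hDs hDt
    refine ⟨⟨contDiff_bilin B hs.1 ht.1, fun z => by rw [hT, hs.2, ht.2]⟩, fun z => ?_⟩
    unfold LC.D at *
    rw [db_bilin B (hs.1.differentiable (by simp) z) (ht.1.differentiable (by simp) z), map_add,
      hT, hT, hs.2, ht.2, ha]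
    have e1 : L.T z (db s z) = -(L.a z • s z) := eq_neg_of_add_eq_zero_left (hDs z)
    have e2 : L'.T z (db t z) = -(L'.a z • t z) := eq_neg_of_add_eq_zero_left (hDt z)
    rw [e1, e2]
    simp only [map_neg, map_smul, neg_apply, smul_apply]
    module
  have k₀ := key Λ.L₀ Λ'.L₀ Λ''.L₀ s₀ t₀ hT₀ ha₀ hs.sec₀ ht.sec₀ hs.hol₀ ht.hol₀
  have k₁ := key Λ.L₁ Λ'.L₁ Λ''.L₁ s₁ t₁ hT₁ ha₁ hs.sec₁ ht.sec₁ hs.hol₁ ht.hol₁
  refine Frames.deg_eq (s₀ := fun z => B (s₀ z) (t₀ z)) (s₁ := fun z => B (s₁ z) (t₁ z))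
    ⟨k₀.1, k₁.1, fun z => hB _ _ (hs.ne₀ z) (ht.ne₀ z), fun z => hB _ _ (hs.ne₁ z) (ht.ne₁ z),
      k₀.2, k₁.2, fun z hz => ?_⟩
  rw [hs.glue z hz, ht.glue z hz, map_smul, map_smul, smul_apply, smul_smul,
    ← zpow_add₀ hz]
  congr 2
  ring

/-- the degree of the dual bundle -/
theorem LP1.deg_pairing (Λ : LP1 E) (Λ' : LP1 E') (B : E →L[ℂ] E' →L[ℂ] ℂ)
    (hT₀ : ∀ z v w, B (Λ.L₀.T z v) w = B v (Λ'.L₀.T z w))
    (hT₁ : ∀ z v w, B (Λ.L₁.T z v) w = B v (Λ'.L₁.T z w))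
    (hB₀ : ∀ z v w, v ≠ 0 → w ≠ 0 → Λ.L₀.T z v = v → Λ'.L₀.T z w = w → B v w ≠ 0)
    (hB₁ : ∀ z v w, v ≠ 0 → w ≠ 0 → Λ.L₁.T z v = v → Λ'.L₁.T z w = w → B v w ≠ 0)
    (ha₀ : ∀ z, Λ.L₀.a z + Λ'.L₀.a z = 0)
    (ha₁ : ∀ z, Λ.L₁.a z + Λ'.L₁.a z = 0) : Λ'.deg = - Λ.deg := by
  obtain ⟨s₀, s₁, hs⟩ := Λ.exists_frames_deg
  obtain ⟨t₀, t₁, ht⟩ := Λ'.exists_frames_deg
  have key : ∀ (L : LC E) (L' : LC E') (s : ℂ → E) (t : ℂ → E'),
      (∀ z v w, B (L.T z v) w = B v (L'.T z w)) → (∀ z, L.a z + L'.a z = 0) →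
      L.IsSec s → L'.IsSec t → (∀ z, L.D s z = 0) → (∀ z, L'.D t z = 0) →
      Differentiable ℂ (fun z => B (s z) (t z)) := by
    intro L L' s t hT ha hs ht hDs hDt z
    refine differentiableAt_of_db ((contDiff_bilin B hs.1 ht.1).differentiable (by simp) z) ?_
    unfold LC.D at *
    rw [db_bilin B (hs.1.differentiable (by simp) z) (ht.1.differentiable (by simp) z)]
    have e1 : L.T z (db s z) = -(L.a z • s z) := eq_neg_of_add_eq_zero_left (hDs z)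
    have e2 : L'.T z (db t z) = -(L'.a z • t z) := eq_neg_of_add_eq_zero_left (hDt z)
    have e3 : B (db s z) (t z) = B (-(L.a z • s z)) (t z) := by
      rw [← e1, hT, ht.2]
    have e4 : B (s z) (db t z) = B (s z) (-(L'.a z • t z)) := by
      rw [← e2, ← hT, hs.2]
    rw [e3, e4]
    simp only [map_neg, map_smul, neg_apply, smul_apply, smul_eq_mul]
    linear_combination (-(B (s z) (t z))) * ha z
  have k₀ := key Λ.L₀ Λ'.L₀ s₀ t₀ hT₀ ha₀ hs.sec₀ ht.sec₀ hs.hol₀ ht.hol₀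
  have k₁ := key Λ.L₁ Λ'.L₁ s₁ t₁ hT₁ ha₁ hs.sec₁ ht.sec₁ hs.hol₁ ht.hol₁
  have n₀ : ∀ z, B (s₀ z) (t₀ z) ≠ 0 := fun z =>
    hB₀ z _ _ (hs.ne₀ z) (ht.ne₀ z) (hs.sec₀.2 z) (ht.sec₀.2 z)
  have n₁ : ∀ z, B (s₁ z) (t₁ z) ≠ 0 := fun z =>
    hB₁ z _ _ (hs.ne₁ z) (ht.ne₁ z) (hs.sec₁.2 z) (ht.sec₁.2 z)
  -- the pairing of the frames
  have hglue : ∀ z : ℂ, z ≠ 0 →
      B (s₀ z) (t₀ z) = z ^ (-(Λ.deg + Λ'.deg)) * B (s₁ z⁻¹) (t₁ z⁻¹) := by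
    intro z hz
    rw [hs.glue z hz, ht.glue z hz, map_smul, map_smul, smul_apply, smul_eq_mul,
      smul_eq_mul, ← mul_assoc, ← zpow_add₀ hz]
    congr 2
    ring
  have hno : ∀ {g q : ℂ → ℂ} {m : ℤ}, Differentiable ℂ g → Differentiable ℂ q → g 0 ≠ 0 →
      (∀ z, z ≠ 0 → g z = z ^ (-m) * q z⁻¹) → ¬ 0 < m := by
    intro g q m hg hq hg0 hgq hm
    obtain ⟨n, hn⟩ := Int.eq_ofNat_of_zero_le (show 0 ≤ m - 1 by omega)
    have hq' : Differentiable ℂ fun w => w ^ n * q w := (differentiable_id.pow n).mul hq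
    obtain ⟨p, hp, hpe⟩ := P1.exists_poly 0 hg hq' (fun z hz => by
      rw [hgq z hz, show -m = -1 - (n : ℤ) by omega, zpow_sub₀ hz]
      simp only [CharP.cast_eq_zero, zero_sub, zpow_natCast, inv_pow]
      field_simp)
    have hp0 : p = 0 := by
      by_contra h0
      rw [Polynomial.degree_eq_natDegree h0] at hp
      exact Nat.not_lt_zero _ (by exact_mod_cast hp)
    exact hg0 (by rw [hpe 0, hp0]; simp)
  have h1 := hno k₀ k₁ (n₀ 0) hglue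
  have h2 : ¬ 0 < -(Λ.deg + Λ'.deg) := by
    refine hno (g := fun z => (B (s₀ z) (t₀ z))⁻¹) (q := fun z => (B (s₁ z) (t₁ z))⁻¹)
      (fun z => (k₀ z).inv (n₀ z)) (fun z => (k₁ z).inv (n₁ z)) (inv_ne_zero (n₀ 0)) ?_
    intro z hz
    rw [hglue z hz, mul_inv, ← zpow_neg]
  omega

/-- sections with prescribed polynomial -/
theorem Frames.exists_section {Λ : LP1 E} {k : ℤ} {s₀ s₁ : ℂ → E} (h : Frames Λ k s₀ s₁)
    (p : Polynomial ℂ) (hp : (p.natDegree : ℤ) ≤ k) :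
    ∃ t₁, HolSec Λ (fun z => p.eval z • s₀ z) t₁ := by
  obtain ⟨n, hn⟩ := Int.eq_ofNat_of_zero_le (show 0 ≤ k - p.natDegree by omega)
  have hpd : Differentiable ℂ fun z => p.eval z := p.differentiable
  have hqd : Differentiable ℂ fun w => w ^ n * p.reverse.eval w :=
    (differentiable_id.pow n).mul p.reverse.differentiable
  refine ⟨fun w => (w ^ n * p.reverse.eval w) • s₁ w, ⟨⟨?_, ?_⟩, ⟨?_, ?_⟩, ?_, ?_, ?_⟩⟩
  · exact ((hpd.contDiff (n := ∞)).restrict_scalars ℝ).smul h.sec₀.1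
  · intro z; rw [map_smul, h.sec₀.2]
  · exact ((hqd.contDiff (n := ∞)).restrict_scalars ℝ).smul h.sec₁.1
  · intro z; rw [map_smul, h.sec₁.2]
  · intro z
    rw [Λ.L₀.D_smul (u := fun z => p.eval z) ((hpd z).restrictScalars ℝ)
      (h.sec₀.1.differentiable (by simp) z) (h.sec₀.2 z), h.hol₀, db_of_differentiableAt (hpd z)]
    simp
  · intro z
    rw [Λ.L₁.D_smul (u := fun w => w ^ n * p.reverse.eval w) ((hqd z).restrictScalars ℝ)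
      (h.sec₁.1.differentiable (by simp) z) (h.sec₁.2 z), h.hol₁, db_of_differentiableAt (hqd z)]
    simp
  · intro z hz
    rw [h.glue z hz, smul_smul]
    congr 1
    let _ : Invertible z := invertibleOfNonzero hz
    have h3 := Polynomial.eval₂_reverse_mul_pow (RingHom.id ℂ) z p
    rw [invOf_eq_inv] at h3
    change Polynomial.eval z⁻¹ p.reverse * z ^ p.natDegree = Polynomial.eval z p at h3
    rw [← h3, show -k = -(p.natDegree : ℤ) + -(n : ℤ) by omega, zpow_add₀ hz, zpow_neg, zpow_neg,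
      zpow_natCast, zpow_natCast, inv_pow]
    have := pow_ne_zero p.natDegree hz
    field_simp

/-- `H¹ = 0` for bundles of degree at least `-1`: every form is `∂̄` of a section -/
theorem Frames.solve {Λ : LP1 E} {k : ℤ} {s₀ s₁ : ℂ → E} (h : Frames Λ k s₀ s₁) (hk : -1 ≤ k)
    {g₀ g₁ : ℂ → E} (hg₀ : Λ.L₀.IsSec g₀) (hg₁ : Λ.L₁.IsSec g₁)
    (hglue : ∀ z, z ≠ 0 → g₀ z = conj (-(z ^ 2)⁻¹) • g₁ z⁻¹) :
    ∃ u₀ u₁ : ℂ → E, Λ.L₀.IsSec u₀ ∧ Λ.L₁.IsSec u₁ ∧ (∀ z, Λ.L₀.D u₀ z = g₀ z) ∧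
      (∀ z, Λ.L₁.D u₁ z = g₁ z) ∧ ∀ z, z ≠ 0 → u₀ z = u₁ z⁻¹ := by
  obtain ⟨n, hn⟩ := Int.eq_ofNat_of_zero_le (show 0 ≤ k + 1 by omega)
  -- coefficients
  have hco : ∀ (L : LC E) (s g : ℂ → E), L.IsSec s → (∀ z, s z ≠ 0) → L.IsSec g →
      ∃ γ : ℂ → ℂ, ContDiff ℝ ∞ γ ∧ ∀ z, g z = γ z • s z := by
    intro L s g hs hne hg
    refine ⟨fun z => inner ℂ (s z) (g z) / inner ℂ (s z) (s z), ?_,
      fun z => L.eq_inner_smul (hg.2 z) (hs.2 z) (hne z)⟩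
    rw [contDiff_iff_contDiffAt]
    intro z
    have hi : ContDiffAt ℝ ∞ (fun z => (inner ℂ (s z) (s z) : ℂ)⁻¹) z := by
      refine ((hs.1.inner ℂ hs.1).contDiffAt).inv ?_
      rw [Ne, inner_self_eq_zero]
      exact hne z
    have h2 := ((hs.1.inner ℂ hg.1).contDiffAt (x := z)).mul hi
    refine h2.congr_of_eventuallyEq (Eventually.of_forall fun y => ?_)
    simp [div_eq_mul_inv]
  obtain ⟨γ₀, hγ₀, hgγ₀⟩ := hco Λ.L₀ s₀ g₀ h.sec₀ h.ne₀ hg₀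
  obtain ⟨γ₁, hγ₁, hgγ₁⟩ := hco Λ.L₁ s₁ g₁ h.sec₁ h.ne₁ hg₁
  have hrel : ∀ z, z ≠ 0 → γ₀ z = conj (-(z ^ 2)⁻¹) * (z ^ ((n : ℤ) - 1) * γ₁ z⁻¹) := by
    intro z hz
    refine smul_left_injective ℂ (h.ne₀ z) ?_
    simp only
    rw [← hgγ₀, hglue z hz, hgγ₁, h.glue z hz, smul_smul, smul_smul]
    congr 1
    rw [show (n : ℤ) - 1 = k by omega]
    have : z ^ k * z ^ (-k) = 1 := by rw [← zpow_add₀ hz]; simp
    linear_combination (-(conj (-(z ^ 2)⁻¹) * γ₁ z⁻¹)) * this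
  obtain ⟨u₀, u₁, hu₀, hu₁, hd₀, hd₁, hu, -⟩ := solve_scalar n hγ₀ hγ₁ hrel
  refine ⟨fun z => u₀ z • s₀ z, fun z => u₁ z • s₁ z, ⟨hu₀.smul h.sec₀.1, fun z => ?_⟩,
    ⟨hu₁.smul h.sec₁.1, fun z => ?_⟩, fun z => ?_, fun z => ?_, fun z hz => ?_⟩
  · rw [map_smul, h.sec₀.2]
  · rw [map_smul, h.sec₁.2]
  · rw [Λ.L₀.D_smul (hu₀.differentiable (by simp) z) (h.sec₀.1.differentiable (by simp) z)
      (h.sec₀.2 z), h.hol₀, hd₀, hgγ₀, smul_zero, zero_add]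
  · rw [Λ.L₁.D_smul (hu₁.differentiable (by simp) z) (h.sec₁.1.differentiable (by simp) z)
      (h.sec₁.2 z), h.hol₁, hd₁, hgγ₁, smul_zero, zero_add]
  · simp only
    rw [hu z hz, h.glue z hz, smul_smul]
    congr 1
    rw [show (n : ℤ) - 1 = k by omega]
    have : z ^ k * z ^ (-k) = 1 := by rw [← zpow_add₀ hz]; simp
    linear_combination (u₁ z⁻¹) * this

/-- scalar `∂̄`-equation on `ℙ¹`, with bounds -/
theorem solve_zero {g₀ g₁ : ℂ → ℂ} (hg₀ : ContDiff ℝ ∞ g₀) (hg₁ : ContDiff ℝ ∞ g₁)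
    (hglue : ∀ z, z ≠ 0 → g₀ z = conj (-(z ^ 2)⁻¹) * g₁ z⁻¹) :
    ∃ u₀ u₁ : ℂ → ℂ, ContDiff ℝ ∞ u₀ ∧ ContDiff ℝ ∞ u₁ ∧ (∀ z, db u₀ z = g₀ z) ∧
      (∀ z, db u₁ z = g₁ z) ∧ (∀ z, z ≠ 0 → u₀ z = u₁ z⁻¹) ∧
      ∀ ε, 0 ≤ ε → (∀ z, ‖z‖ ≤ 3 / 2 → ‖g₀ z‖ ≤ ε ∧ ‖g₁ z‖ ≤ ε) →
        ∀ z, ‖u₀ z‖ ≤ 2 * cauC (3 / 2) * ε ∧ ‖u₁ z‖ ≤ 2 * cauC (3 / 2) * ε := by
  obtain ⟨u₀, u₁, h1, h2, h3, h4, h5, h6⟩ := solve_scalar 1 hg₀ hg₁ (fun z hz => by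
    rw [hglue z hz]; simp)
  exact ⟨u₀, u₁, h1, h2, h3, h4, fun z hz => by rw [h5 z hz]; simp, h6 rfl⟩

/-- **Oscillation.** If the projections are constant and `|a| ≤ ε` then the norm of a holomorphic
section varies by a factor at most `exp (cε)`. -/
theorem HolSec.norm_le {Λ : LP1 E} {t₀ t₁ : ℂ → E} (ht : HolSec Λ t₀ t₁) {T : E →L[ℂ] E}
    (hT₀ : ∀ z, Λ.L₀.T z = T) (hT₁ : ∀ z, Λ.L₁.T z = T) {ε : ℝ} (hε : 0 ≤ ε)
    (ha : ∀ z : ℂ, ‖z‖ ≤ 3 / 2 → ‖Λ.L₀.a z‖ ≤ ε ∧ ‖Λ.L₁.a z‖ ≤ ε) :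
    ∃ (v : E) (u₀ u₁ : ℂ → ℂ), (∀ z, t₀ z = Complex.exp (u₀ z) • v) ∧
      (∀ z, t₁ z = Complex.exp (u₁ z) • v) ∧
      ∀ z, ‖u₀ z‖ ≤ 2 * cauC (3 / 2) * ε ∧ ‖u₁ z‖ ≤ 2 * cauC (3 / 2) * ε := by
  obtain ⟨u₀, u₁, hu₀, hu₁, hd₀, hd₁, hu, hb⟩ := solve_zero Λ.L₀.smooth_a Λ.L₁.smooth_a Λ.glue_a
  have hbb := hb ε hε ha
  -- `exp u • t` is holomorphic and bounded
  have hhol : ∀ (L : LC E) (t : ℂ → E) (u : ℂ → ℂ), (∀ z, L.T z = T) → L.IsSec t →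
      (∀ z, L.D t z = 0) → ContDiff ℝ ∞ u → (∀ z, db u z = L.a z) →
      Differentiable ℂ fun z => Complex.exp (u z) • t z := by
    intro L t u hT hs hD hu hdu z
    have e1 : DifferentiableAt ℝ u z := hu.differentiable (by simp) z
    have e2 : DifferentiableAt ℝ t z := hs.1.differentiable (by simp) z
    refine differentiableAt_of_db (e1.cexp.smul e2) ?_
    rw [db_smul e1.cexp e2, db_cexp e1, hdu]
    have e3 : T (db t z) = db t z := by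
      have e4 : (fun z => T (t z)) = t := by
        funext z
        rw [← hT z, hs.2]
      have e5 := db_clm T e2
      rw [e4] at e5
      exact e5.symm
    have e6 := hD z
    unfold LC.D at e6
    rw [hT, e3] at e6
    have e7 : db t z = -(L.a z • t z) := eq_neg_of_add_eq_zero_left e6
    rw [e7]
    module
  have h₀ := hhol Λ.L₀ t₀ u₀ hT₀ ht.sec₀ ht.hol₀ hu₀ hd₀
  have h₁ := hhol Λ.L₁ t₁ u₁ hT₁ ht.sec₁ ht.hol₁ hu₁ hd₁
  have hbdd : Bornology.IsBounded (range fun z => Complex.exp (u₀ z) • t₀ z) := by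
    have c₀ : IsCompact ((fun z => Complex.exp (u₀ z) • t₀ z) '' closedBall 0 1) :=
      (isCompact_closedBall _ _).image h₀.continuous
    have c₁ : IsCompact ((fun z => Complex.exp (u₁ z) • t₁ z) '' closedBall 0 1) :=
      (isCompact_closedBall _ _).image h₁.continuous
    refine (c₀.isBounded.union c₁.isBounded).subset ?_
    rintro _ ⟨z, rfl⟩
    by_cases hz : ‖z‖ ≤ 1
    · exact Or.inl ⟨z, by simpa using hz, rfl⟩
    · have hz0 : z ≠ 0 := by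
        rintro rfl
        simp at hz
      refine Or.inr ⟨z⁻¹, ?_, ?_⟩
      · rw [mem_closedBall, dist_zero_right, norm_inv]
        exact inv_le_one_of_one_le₀ (not_le.1 hz).le
      · simp only
        rw [hu z hz0, ht.glue z hz0]
  obtain ⟨v, hv⟩ : ∃ v, ∀ z, Complex.exp (u₀ z) • t₀ z = v :=
    ⟨_, fun z => h₀.apply_eq_apply_of_bounded hbdd z 0⟩
  have hv₀ : ∀ z, t₀ z = Complex.exp (-u₀ z) • v := by
    intro z
    rw [← hv z, smul_smul, ← Complex.exp_add, neg_add_cancel, Complex.exp_zero, one_smul]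
  have hv₁ : t₁ = fun z => Complex.exp (-u₁ z) • v := by
    refine ht.sec₁.1.continuous.ext_on (dense_compl_singleton 0)
      (hu₁.neg.cexp.smul contDiff_const).continuous fun w hw => ?_
    have hw0 : w ≠ 0 := hw
    have h2 := ht.glue w⁻¹ (inv_ne_zero hw0)
    have h3 := hu w⁻¹ (inv_ne_zero hw0)
    rw [inv_inv] at h2 h3
    rw [← h2, hv₀, h3]
  refine ⟨v, fun z => -u₀ z, fun z => -u₁ z, hv₀, fun z => by rw [hv₁], fun z => ?_⟩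
  rw [norm_neg, norm_neg]
  exact hbb z

end

end Vale.Agent.P267.H205.P1
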