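import Vale.Agent.P267.H205.Rs

/-!
# Simple poles, weakly holomorphic functions, open mapping and local inverses
-/

open scoped Manifold ContDiff Topology
open Set Filter

namespace Vale.Agent.P267.H205

universe u

variable {R : Type u} [TopologicalSpace R] [ChartedSpace ℂ R]

/-- `h` has a simple pole at `p`. -/
def PoleAt (h : R → ℂ) (p : R) : Prop :=
  ∃ c : ℂ, c ≠ 0 ∧ ∃ g : R → ℂ, HolAt g p ∧
    ∀ᶠ x in 𝓝[≠] p, h x = c / (chartAt ℂ p x - chartAt ℂ p p) + g x

/-- function of the chart coordinate. -/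
theorem holAt_comp_chart {g : ℂ → ℂ} {x : R} (hg : AnalyticAt ℂ g (chartAt ℂ x x)) :
    HolAt (fun y => g (chartAt ℂ x y)) x := by
  refine hg.congr ?_
  filter_upwards [chart_target_mem_nhds ℂ x] with z hz
  simp [(chartAt ℂ x).right_inv hz]

theorem analyticAt_dslope {f : ℂ → ℂ} {z₀ : ℂ} (hf : AnalyticAt ℂ f z₀) :
    AnalyticAt ℂ (dslope f z₀) z₀ := by
  obtain ⟨p, hp⟩ := hf
  exact ⟨_, hp.has_fpower_series_dslope_fslope⟩

/-- Taylor expansion of order one. -/
theorem HolAt.exists_factor {f : R → ℂ} {x : R} (hf : HolAt f x) :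
    ∃ k : R → ℂ, HolAt k x ∧
      ∀ᶠ y in 𝓝 x, f y = f x + (chartAt ℂ x y - chartAt ℂ x x) * k y := by
  refine ⟨fun y => dslope (f ∘ (chartAt ℂ x).symm) (chartAt ℂ x x) (chartAt ℂ x y),
    holAt_comp_chart (analyticAt_dslope hf), ?_⟩
  filter_upwards [chart_source_mem_nhds ℂ x] with y hy
  have h := sub_smul_dslope (f ∘ (chartAt ℂ x).symm) (chartAt ℂ x x) (chartAt ℂ x y)
  rw [smul_eq_mul] at h
  rw [h]
  simp [(chartAt ℂ x).left_inv (mem_chart_source ℂ x), (chartAt ℂ x).left_inv hy]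

theorem chart_ne {x : R} : ∀ᶠ y in 𝓝[≠] x, chartAt ℂ x y - chartAt ℂ x x ≠ 0 := by
  have := tendsto_chart_ne x
  filter_upwards [this.eventually self_mem_nhdsWithin] with y hy
  exact sub_ne_zero.2 hy

theorem holAt_coord (x : R) : HolAt (fun y => chartAt ℂ x y - chartAt ℂ x x) x :=
  (holAt_chart x).sub (holAt_const _ x)

theorem PoleAt.recip {h : R → ℂ} {p : R} (hp : PoleAt h p) :
    ∃ k : R → ℂ, HolAt k p ∧ k p = 0 ∧ ∀ᶠ x in 𝓝[≠] p, k x ≠ 0 ∧ h x = (k x)⁻¹ := by
  obtain ⟨c, hc, g, hg, hh⟩ := hp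
  set t : R → ℂ := fun x => chartAt ℂ p x - chartAt ℂ p p with ht
  have htp : t p = 0 := by simp [ht]
  have htH : HolAt t p := holAt_coord p
  have hden : HolAt (fun x => c + t x * g x) p := (holAt_const c p).add (htH.mul hg)
  have hden0 : c + t p * g p ≠ 0 := by simp [htp, hc]
  refine ⟨fun x => t x * (c + t x * g x)⁻¹, htH.mul (hden.inv hden0), by simp [htp], ?_⟩
  have h1 : ∀ᶠ x in 𝓝[≠] p, c + t x * g x ≠ 0 :=
    nhdsWithin_le_nhds (hden.continuousAt.eventually_ne hden0)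
  filter_upwards [h1, hh, chart_ne (x := p)] with x h2 h3 h4
  have h4' : t x ≠ 0 := h4
  refine ⟨mul_ne_zero h4' (inv_ne_zero h2), ?_⟩
  rw [h3]
  change c / t x + g x = _
  field_simp

theorem PoleAt.merAt {h : R → ℂ} {p : R} (hp : PoleAt h p) : MerAt h p := by
  obtain ⟨k, hk, -, hh⟩ := hp.recip
  exact hk.merAt.inv.congr (hh.mono fun x hx => hx.2.symm)

theorem PoleAt.tendsto {h : R → ℂ} {p : R} (hp : PoleAt h p) :
    Tendsto h (𝓝[≠] p) (Bornology.cobounded ℂ) := by
  obtain ⟨k, hk, hk0, hh⟩ := hp.recip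
  have h1 : Tendsto k (𝓝[≠] p) (𝓝[≠] 0) := by
    refine tendsto_nhdsWithin_iff.2 ⟨?_, hh.mono fun x hx => hx.1⟩
    have := hk.continuousAt.tendsto
    rw [hk0] at this
    exact this.mono_left nhdsWithin_le_nhds
  exact (tendsto_inv₀_nhdsNE_zero.comp h1).congr' (hh.mono fun x hx => hx.2.symm)

theorem PoleAt.eventually_ne {h : R → ℂ} {p : R} (hp : PoleAt h p) (a : ℂ) :
    ∀ᶠ x in 𝓝[≠] p, h x ≠ a := by
  have h1 : ∀ᶠ z in Bornology.cobounded ℂ, z ≠ a := by
    have : ({a} : Set ℂ)ᶜ ∈ Bornology.cobounded ℂ :=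
      Bornology.isBounded_def.1 (Bornology.isBounded_singleton)
    exact this
  exact hp.tendsto.eventually h1

/-! ### weakly holomorphic functions -/

section Weak

variable [IsManifold 𝓘(ℂ) 1 R] [T2Space R]

/-- If near each point `f` agrees off the point with a holomorphic function, then `f` agrees with a
globally holomorphic function off a discrete set. -/
theorem exists_holomorphic_of_weak {f : R → ℂ}
    (hf : ∀ x, ∃ g : R → ℂ, HolAt g x ∧ ∀ᶠ y in 𝓝[≠] x, f y = g y) :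
    ∃ F : R → ℂ, (∀ x, HolAt F x) ∧ ∀ x, ∀ᶠ y in 𝓝[≠] x, f y = F y := by
  choose g hg hfg using hf
  refine ⟨fun x => g x x, ?_⟩
  have key : ∀ x, ∀ᶠ y in 𝓝[≠] x, g y y = g x y ∧ f y = g y y := by
    intro x
    have h1 : ∀ᶠ y in 𝓝 x, y ≠ x → f y = g x y := eventually_nhdsWithin_iff.1 (hfg x)
    have h2 := eventually_eventually_nhds.2 h1
    have h3 := (hg x).eventually
    filter_upwards [nhdsWithin_le_nhds h2, nhdsWithin_le_nhds h3, self_mem_nhdsWithin]
      with y hy hy3 hne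
    have hne' : ∀ᶠ w in 𝓝 y, w ≠ x := isOpen_ne.mem_nhds hne
    have h4 : ∀ᶠ w in 𝓝 y, f w = g x w := by
      filter_upwards [hy, hne'] with w hw hwx
      exact hw hwx
    have h5 : ∀ᶠ w in 𝓝[≠] y, g y w = g x w := by
      filter_upwards [hfg y, nhdsWithin_le_nhds h4] with w hw1 hw2
      rw [← hw1, hw2]
    have e1 : Tendsto (g y) (𝓝[≠] y) (𝓝 (g y y)) :=
      (hg y).continuousAt.tendsto.mono_left nhdsWithin_le_nhds
    have e2 : Tendsto (g y) (𝓝[≠] y) (𝓝 (g x y)) :=
      (hy3.continuousAt.tendsto.mono_left nhdsWithin_le_nhds).congr' (h5.mono fun w hw => hw.symm)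
    have e3 := tendsto_nhds_unique e1 e2
    refine ⟨e3, ?_⟩
    rw [e3]
    exact h4.self_of_nhds
  refine ⟨fun x => ?_, fun x => (key x).mono fun y hy => hy.2⟩
  refine (hg x).congr ?_
  have := eventually_nhdsWithin_iff.1 (key x)
  filter_upwards [this] with y hy
  by_cases h : y = x
  · rw [h]
  · exact (hy h).1.symm

/-- A weakly holomorphic function on a compact connected Riemann surface is constant, at all points
where it is continuous. -/
theorem const_of_weak [CompactSpace R] [PreconnectedSpace R] [Nonempty R] {f : R → ℂ}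
    (hf : ∀ x, ∃ g : R → ℂ, HolAt g x ∧ ∀ᶠ y in 𝓝[≠] x, f y = g y) :
    ∃ b : ℂ, ∀ x, ContinuousAt f x → f x = b := by
  obtain ⟨F, hF, hfF⟩ := exists_holomorphic_of_weak hf
  inhabit R
  refine ⟨F default, fun x hx => ?_⟩
  have h1 : ∀ᶠ y in 𝓝[≠] x, f y = F default :=
    (hfF x).mono fun y hy => by rw [hy]; exact const_of_holAt hF y default
  have e1 : Tendsto f (𝓝[≠] x) (𝓝 (f x)) := hx.tendsto.mono_left nhdsWithin_le_nhds
  have e2 : Tendsto f (𝓝[≠] x) (𝓝 (F default)) :=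
    tendsto_const_nhds.congr' (h1.mono fun w hw => hw.symm)
  exact tendsto_nhds_unique e1 e2

end Weak

/-- Open mapping. -/
theorem HolAt.nhds_le_map {f : R → ℂ} {x : R} (hf : HolAt f x)
    (hne : ¬ ∀ᶠ y in 𝓝[≠] x, f y = f x) : 𝓝 (f x) ≤ map f (𝓝 x) := by
  have hx : (f ∘ (chartAt ℂ x).symm) (chartAt ℂ x x) = f x := by
    simp [(chartAt ℂ x).left_inv (mem_chart_source ℂ x)]
  rcases AnalyticAt.eventually_constant_or_nhds_le_map_nhds hf with h | h
  · exfalso
    apply hne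
    rw [hx] at h
    exact nhdsWithin_le_nhds (eventually_chart.2 h)
  · rw [hx] at h
    rwa [← Filter.map_map, map_chart_symm] at h

/-- A continuous local right inverse of a holomorphic function is holomorphic. -/
theorem mdifferentiableAt_of_right_inverse [IsManifold 𝓘(ℂ) 1 R] {F : ℂ → R} {k : R → ℂ} {z₀ : ℂ}
    (hF : ∀ᶠ z in 𝓝 z₀, ContinuousAt F z) (hk : HolAt k (F z₀))
    (hkF : ∀ᶠ z in 𝓝 z₀, k (F z) = z) :
    MDifferentiableAt 𝓘(ℂ) 𝓘(ℂ) F z₀ := by
  set e := chartAt ℂ (F z₀) with he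
  set k' : ℂ → ℂ := k ∘ e.symm with hk'
  have hk'a : AnalyticAt ℂ k' (e (F z₀)) := hk
  have hF0 : ContinuousAt F z₀ := hF.self_of_nhds
  have hsrc : ∀ᶠ z in 𝓝 z₀, F z ∈ e.source :=
    hF0.eventually (chart_source_mem_nhds ℂ (F z₀))
  have hG0 : ContinuousAt (fun z => e (F z)) z₀ :=
    (e.continuousAt (mem_chart_source ℂ (F z₀))).comp hF0
  have hinj : ∀ᶠ z in 𝓝 z₀, k' (e (F z)) = z := by
    filter_upwards [hkF, hsrc] with z hz hs
    simp [hk', e.left_inv hs, hz]
  -- the derivative of k' is not identically zero near the point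
  have hder : ∀ᶠ w in 𝓝[≠] (e (F z₀)), deriv k' w ≠ 0 := by
    rcases hk'a.deriv.eventually_eq_zero_or_eventually_ne_zero with h | h
    · exfalso
      -- k' is locally constant
      have h2 : ∀ᶠ w in 𝓝 (e (F z₀)), k' w = k' (e (F z₀)) := by
        obtain ⟨r, hr, hball⟩ := Metric.eventually_nhds_iff_ball.1 (h.and hk'a.eventually_analyticAt)
        refine Metric.eventually_nhds_iff_ball.2 ⟨r, hr, fun w hw => ?_⟩
        refine (convex_ball (e (F z₀)) r).is_const_of_fderivWithin_eq_zero (𝕜 := ℂ) (f := k') ?_ ?_ hw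
          (Metric.mem_ball_self hr)
        · intro y hy
          exact (hball y hy).2.differentiableAt.differentiableWithinAt
        · intro y hy
          rw [fderivWithin_of_isOpen Metric.isOpen_ball hy]
          ext
          simpa using (hball y hy).1
      have h3 : ∀ᶠ z in 𝓝 z₀, z = z₀ := by
        have h4 := hG0.eventually h2
        have h5 := hinj.self_of_nhds
        filter_upwards [h4, hinj] with z hz hz2
        rw [hz2] at hz
        rw [hz, h5]
      have h6 : ∀ᶠ z in 𝓝[≠] z₀, z = z₀ := nhdsWithin_le_nhds h3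
      obtain ⟨z, hz1, hz2⟩ := (h6.and self_mem_nhdsWithin).exists
      exact hz2 hz1
    · exact h
  have hGne : Tendsto (fun z => e (F z)) (𝓝[≠] z₀) (𝓝[≠] (e (F z₀))) := by
    refine tendsto_nhdsWithin_iff.2 ⟨hG0.tendsto.mono_left nhdsWithin_le_nhds, ?_⟩
    filter_upwards [nhdsWithin_le_nhds hinj, self_mem_nhdsWithin] with z hz hne h
    apply hne
    rw [mem_singleton_iff] at h
    have h5 := hinj.self_of_nhds
    rw [h] at hz
    rw [mem_singleton_iff, ← hz, h5]
  have hd : ∀ᶠ z in 𝓝[≠] z₀, DifferentiableAt ℂ (fun z => e (F z)) z := by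
    have a1 := hGne.eventually hder
    have a2 := hGne.eventually (nhdsWithin_le_nhds hk'a.eventually_analyticAt)
    have a3 : ∀ᶠ z in 𝓝[≠] z₀, ∀ᶠ w in 𝓝 z, k' (e (F w)) = w :=
      nhdsWithin_le_nhds (eventually_eventually_nhds.2 hinj)
    filter_upwards [a1, a2, a3, nhdsWithin_le_nhds hF, nhdsWithin_le_nhds hsrc]
      with z h1 h2 h3 h4 h5
    have hc : ContinuousAt (fun z => e (F z)) z :=
      (e.continuousAt h5).comp h4
    exact (HasDerivAt.of_local_left_inverse hc h2.differentiableAt.hasDerivAt h1 h3).differentiableAt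
  have hG : AnalyticAt ℂ (fun z => e (F z)) z₀ :=
    Complex.analyticAt_of_differentiable_on_punctured_nhds_of_continuousAt hd hG0
  have h1 : MDifferentiableAt 𝓘(ℂ) 𝓘(ℂ) (fun z => e (F z)) z₀ :=
    hG.differentiableAt.mdifferentiableAt
  have h2 : MDifferentiableAt 𝓘(ℂ) 𝓘(ℂ) e.symm (e (F z₀)) :=
    mdifferentiableAt_atlas_symm (chart_mem_atlas ℂ (F z₀)) (mem_chart_target ℂ (F z₀))
  have h3 := MDifferentiableAt.comp z₀ (g := e.symm) (f := fun z => e (F z)) h2 h1
  refine h3.congr_of_eventuallyEq ?_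
  filter_upwards [hsrc] with z hz
  simp [e.left_inv hz]

end Vale.Agent.P267.H205
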