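import Mathlib

/-!
# One-dimensional complex manifolds: charts, holomorphic functions, identity theorem

`HolAt f x` : the function `f : R → ℂ` is holomorphic near `x` (read in the chart at `x`);
`MerAt f x` : `f` is meromorphic at `x`.
-/

open scoped Manifold ContDiff Topology
open Set Filter

namespace Vale.Agent.P267.H205

universe u

variable {R : Type u} [TopologicalSpace R] [ChartedSpace ℂ R]

/-- holomorphic near `x`. -/
def HolAt (f : R → ℂ) (x : R) : Prop :=
  AnalyticAt ℂ (f ∘ (chartAt ℂ x).symm) (chartAt ℂ x x)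

/-- meromorphic at `x`. -/
def MerAt (f : R → ℂ) (x : R) : Prop :=
  MeromorphicAt (f ∘ (chartAt ℂ x).symm) (chartAt ℂ x x)

/-- Pulling back neighbourhoods through the chart. -/
theorem tendsto_chart (x : R) :
    Tendsto (chartAt ℂ x) (𝓝 x) (𝓝 (chartAt ℂ x x)) :=
  (chartAt ℂ x).continuousAt (mem_chart_source ℂ x)

theorem tendsto_chart_symm (x : R) :
    Tendsto (chartAt ℂ x).symm (𝓝 (chartAt ℂ x x)) (𝓝 x) := by
  have h := (chartAt ℂ x).continuousAt_symm (mem_chart_target ℂ x)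
  have h2 : (chartAt ℂ x).symm (chartAt ℂ x x) = x :=
    (chartAt ℂ x).left_inv (mem_chart_source ℂ x)
  unfold ContinuousAt at h
  rwa [h2] at h

theorem map_chart_symm (x : R) :
    map (chartAt ℂ x).symm (𝓝 (chartAt ℂ x x)) = 𝓝 x := by
  have := (chartAt ℂ x).symm.map_nhds_eq (x := chartAt ℂ x x) (by simp)
  simpa using this

theorem map_chart (x : R) : map (chartAt ℂ x) (𝓝 x) = 𝓝 (chartAt ℂ x x) :=
  (chartAt ℂ x).map_nhds_eq (mem_chart_source ℂ x)

/-- Punctured version. -/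
theorem tendsto_chart_ne (x : R) :
    Tendsto (chartAt ℂ x) (𝓝[≠] x) (𝓝[≠] (chartAt ℂ x x)) := by
  refine tendsto_nhdsWithin_iff.2 ⟨(tendsto_chart x).mono_left nhdsWithin_le_nhds, ?_⟩
  have h1 : ∀ᶠ y in 𝓝[≠] x, y ∈ (chartAt ℂ x).source :=
    nhdsWithin_le_nhds (chart_source_mem_nhds ℂ x)
  filter_upwards [h1, self_mem_nhdsWithin] with y hy hne h
  exact hne ((chartAt ℂ x).injOn hy (mem_chart_source ℂ x) h)

theorem tendsto_chart_symm_ne (x : R) :
    Tendsto (chartAt ℂ x).symm (𝓝[≠] (chartAt ℂ x x)) (𝓝[≠] x) := by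
  refine tendsto_nhdsWithin_iff.2 ⟨(tendsto_chart_symm x).mono_left nhdsWithin_le_nhds, ?_⟩
  have h1 : ∀ᶠ y in 𝓝[≠] (chartAt ℂ x x), y ∈ (chartAt ℂ x).target :=
    nhdsWithin_le_nhds (chart_target_mem_nhds ℂ x)
  filter_upwards [h1, self_mem_nhdsWithin] with y hy hne h
  apply hne
  rw [mem_singleton_iff] at h
  have := (chartAt ℂ x).right_inv hy
  rw [h] at this
  exact this.symm

instance nhdsNE_neBot (x : R) : (𝓝[≠] x).NeBot :=
  (tendsto_chart_symm_ne x).neBot

/-- an eventual property near `x` read in the chart. -/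
theorem eventually_chart {x : R} {P : R → Prop} :
    (∀ᶠ y in 𝓝 x, P y) ↔ ∀ᶠ z in 𝓝 (chartAt ℂ x x), P ((chartAt ℂ x).symm z) := by
  rw [← map_chart_symm x, eventually_map]

theorem eventually_chart_ne {x : R} {P : R → Prop} :
    (∀ᶠ y in 𝓝[≠] x, P y) ↔ ∀ᶠ z in 𝓝[≠] (chartAt ℂ x x), P ((chartAt ℂ x).symm z) := by
  constructor
  · intro h
    exact (tendsto_chart_symm_ne x).eventually h
  · intro h
    have h1 : ∀ᶠ y in 𝓝[≠] x, y ∈ (chartAt ℂ x).source :=
      nhdsWithin_le_nhds (chart_source_mem_nhds ℂ x)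
    filter_upwards [(tendsto_chart_ne x).eventually h, h1] with y hy hs
    rwa [(chartAt ℂ x).left_inv hs] at hy

theorem HolAt.merAt {f : R → ℂ} {x : R} (h : HolAt f x) : MerAt f x :=
  AnalyticAt.meromorphicAt h

theorem HolAt.congr {f g : R → ℂ} {x : R} (h : HolAt f x) (hfg : f =ᶠ[𝓝 x] g) : HolAt g x := by
  refine AnalyticAt.congr h ?_
  exact (tendsto_chart_symm x).eventually hfg

theorem MerAt.congr {f g : R → ℂ} {x : R} (h : MerAt f x) (hfg : f =ᶠ[𝓝[≠] x] g) :
    MerAt g x := by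
  refine MeromorphicAt.congr h ?_
  exact (tendsto_chart_symm_ne x).eventually hfg

theorem HolAt.continuousAt {f : R → ℂ} {x : R} (h : HolAt f x) : ContinuousAt f x := by
  have h1 : ContinuousAt (f ∘ (chartAt ℂ x).symm) (chartAt ℂ x x) := AnalyticAt.continuousAt h
  have h2 := h1.tendsto.comp (tendsto_chart x)
  have h3 : (f ∘ (chartAt ℂ x).symm) (chartAt ℂ x x) = f x := by
    simp [(chartAt ℂ x).left_inv (mem_chart_source ℂ x)]
  rw [h3] at h2
  refine h2.congr' ?_
  filter_upwards [chart_source_mem_nhds ℂ x] with y hy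
  simp [(chartAt ℂ x).left_inv hy]

theorem holAt_const (c : ℂ) (x : R) : HolAt (fun _ => c) x := analyticAt_const

theorem merAt_const (c : ℂ) (x : R) : MerAt (fun _ : R => c) x := (holAt_const c x).merAt

theorem HolAt.add {f g : R → ℂ} {x : R} (hf : HolAt f x) (hg : HolAt g x) :
    HolAt (fun y => f y + g y) x := AnalyticAt.add hf hg

theorem HolAt.sub {f g : R → ℂ} {x : R} (hf : HolAt f x) (hg : HolAt g x) :
    HolAt (fun y => f y - g y) x := AnalyticAt.sub hf hg

theorem HolAt.mul {f g : R → ℂ} {x : R} (hf : HolAt f x) (hg : HolAt g x) :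
    HolAt (fun y => f y * g y) x := AnalyticAt.mul hf hg

theorem HolAt.neg {f : R → ℂ} {x : R} (hf : HolAt f x) : HolAt (fun y => - f y) x :=
  AnalyticAt.neg hf

theorem HolAt.inv {f : R → ℂ} {x : R} (hf : HolAt f x) (h0 : f x ≠ 0) :
    HolAt (fun y => (f y)⁻¹) x := by
  refine AnalyticAt.inv hf ?_
  simpa [(chartAt ℂ x).left_inv (mem_chart_source ℂ x)] using h0

theorem MerAt.add {f g : R → ℂ} {x : R} (hf : MerAt f x) (hg : MerAt g x) :
    MerAt (fun y => f y + g y) x := MeromorphicAt.add hf hg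

theorem MerAt.sub {f g : R → ℂ} {x : R} (hf : MerAt f x) (hg : MerAt g x) :
    MerAt (fun y => f y - g y) x := MeromorphicAt.sub hf hg

theorem MerAt.mul {f g : R → ℂ} {x : R} (hf : MerAt f x) (hg : MerAt g x) :
    MerAt (fun y => f y * g y) x := MeromorphicAt.mul hf hg

theorem MerAt.inv {f : R → ℂ} {x : R} (hf : MerAt f x) :
    MerAt (fun y => (f y)⁻¹) x := MeromorphicAt.inv hf

/-- the chart itself. -/
theorem holAt_chart (x : R) : HolAt (fun y => chartAt ℂ x y) x := by
  have h : (fun z : ℂ => z) =ᶠ[𝓝 (chartAt ℂ x x)]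
      ((fun y => chartAt ℂ x y) ∘ (chartAt ℂ x).symm) := by
    filter_upwards [chart_target_mem_nhds ℂ x] with z hz
    simp [(chartAt ℂ x).right_inv hz]
  exact analyticAt_id.congr h

/-- Dichotomy for meromorphic functions. -/
theorem MerAt.eventually_eq_zero_or {f : R → ℂ} {x : R} (hf : MerAt f x) :
    (∀ᶠ y in 𝓝[≠] x, f y = 0) ∨ ∀ᶠ y in 𝓝[≠] x, f y ≠ 0 := by
  rcases MeromorphicAt.eventually_eq_zero_or_eventually_ne_zero hf with h | h
  · exact Or.inl (eventually_chart_ne.2 h)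
  · exact Or.inr (eventually_chart_ne.2 h)

/-- Identity theorem for meromorphic functions on a connected Riemann surface. -/
theorem eventually_zero_everywhere [T1Space R] [PreconnectedSpace R] {f : R → ℂ}
    (hf : ∀ x, MerAt f x) {x₀ : R} (h0 : ∀ᶠ y in 𝓝[≠] x₀, f y = 0) (x : R) :
    ∀ᶠ y in 𝓝[≠] x, f y = 0 := by
  have hopen : ∀ P : R → Prop, IsOpen {x : R | ∀ᶠ y in 𝓝[≠] x, P y} := by
    intro P
    rw [isOpen_iff_mem_nhds]
    intro a ha
    have ha' : ∀ᶠ y in 𝓝[≠] a, P y := ha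
    rw [eventually_nhdsWithin_iff] at ha'
    have h2 := eventually_eventually_nhds.2 ha'
    filter_upwards [h2] with y hy
    change ∀ᶠ z in 𝓝[≠] y, P z
    by_cases hya : y = a
    · rw [hya]; exact ha
    · have h3 : ∀ᶠ z in 𝓝 y, z ≠ a := isOpen_ne.mem_nhds hya
      filter_upwards [nhdsWithin_le_nhds hy, nhdsWithin_le_nhds h3] with z hz hza
      exact hz hza
  have hclopen : IsClopen {x : R | ∀ᶠ y in 𝓝[≠] x, f y = 0} := by
    refine ⟨?_, hopen _⟩
    have : {x : R | ∀ᶠ y in 𝓝[≠] x, f y = 0}ᶜ = {x : R | ∀ᶠ y in 𝓝[≠] x, f y ≠ 0} := by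
      ext a
      constructor
      · intro ha
        exact ((hf a).eventually_eq_zero_or).resolve_left ha
      · intro ha hb
        have hb' : ∀ᶠ y in 𝓝[≠] a, f y = 0 := hb
        have ha' : ∀ᶠ y in 𝓝[≠] a, f y ≠ 0 := ha
        obtain ⟨y, h1, h2⟩ := (ha'.and hb').exists
        exact h1 h2
    rw [← isOpen_compl_iff, this]
    exact hopen _
  have huniv := hclopen.eq_univ ⟨x₀, h0⟩
  have : x ∈ {x : R | ∀ᶠ y in 𝓝[≠] x, f y = 0} := by rw [huniv]; trivial
  exact this

section Manifold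

variable [IsManifold 𝓘(ℂ) 1 R]

theorem holAt_iff {f : R → ℂ} {x : R} :
    HolAt f x ↔ ∀ᶠ y in 𝓝 x, MDifferentiableAt 𝓘(ℂ) 𝓘(ℂ) f y := by
  set e := chartAt ℂ x with he
  have hea : e ∈ atlas ℂ R := chart_mem_atlas ℂ x
  unfold HolAt
  rw [Complex.analyticAt_iff_eventually_differentiableAt]
  constructor
  · intro h
    have h1 := (tendsto_chart x).eventually h
    filter_upwards [h1, chart_source_mem_nhds ℂ x] with y hy hs
    have h2 : MDifferentiableAt 𝓘(ℂ) 𝓘(ℂ) (f ∘ e.symm) (e y) := hy.mdifferentiableAt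
    have h3 : MDifferentiableAt 𝓘(ℂ) 𝓘(ℂ) e y := mdifferentiableAt_atlas hea hs
    have h4 := h2.comp y h3
    refine h4.congr_of_eventuallyEq ?_
    filter_upwards [e.open_source.mem_nhds hs] with w hw
    simp [e.left_inv hw]
  · intro h
    have h1 := (tendsto_chart_symm x).eventually h
    filter_upwards [h1, chart_target_mem_nhds ℂ x] with z hz ht
    have h3 : MDifferentiableAt 𝓘(ℂ) 𝓘(ℂ) e.symm z := mdifferentiableAt_atlas_symm hea ht
    have h4 := MDifferentiableAt.comp z hz h3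
    exact h4.differentiableAt

theorem HolAt.eventually {f : R → ℂ} {x : R} (h : HolAt f x) : ∀ᶠ y in 𝓝 x, HolAt f y := by
  rw [holAt_iff] at h
  filter_upwards [eventually_eventually_nhds.2 h] with y hy
  exact holAt_iff.2 hy

theorem mdifferentiable_of_holAt {f : R → ℂ} (h : ∀ x, HolAt f x) :
    MDifferentiable 𝓘(ℂ) 𝓘(ℂ) f :=
  fun x => (holAt_iff.1 (h x)).self_of_nhds

theorem holAt_of_mdifferentiableOn {f : R → ℂ} {U : Set R} (hU : IsOpen U)
    (h : MDifferentiableOn 𝓘(ℂ) 𝓘(ℂ) f U) {x : R} (hx : x ∈ U) : HolAt f x := by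
  rw [holAt_iff]
  filter_upwards [hU.mem_nhds hx] with y hy
  exact (h y hy).mdifferentiableAt (hU.mem_nhds hy)

theorem const_of_holAt [CompactSpace R] [PreconnectedSpace R] {f : R → ℂ}
    (h : ∀ x, HolAt f x) (a b : R) : f a = f b :=
  (mdifferentiable_of_holAt h).apply_eq_of_compactSpace a b

end Manifold

/-- Removable singularity: a function which is holomorphic near `x`, off `x`, and which agrees off
`x` with a function holomorphic at `x`. -/
theorem holAt_update [DecidableEq R] {f g : R → ℂ} {x : R} (hg : HolAt g x)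
    (hfg : ∀ᶠ y in 𝓝[≠] x, f y = g y) : HolAt (Function.update f x (g x)) x := by
  refine hg.congr ?_
  rw [eventually_nhdsWithin_iff] at hfg
  filter_upwards [hfg] with y hy
  by_cases h : y = x
  · subst h; simp
  · rw [Function.update_of_ne h]; exact (hy h).symm

end Vale.Agent.P267.H205
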