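import Vale.Agent.P267.H205.Pole

/-!
# A compact Riemann surface with simple poles anywhere (off a finite set) is the Riemann sphere
-/

open scoped Manifold ContDiff Topology
open Set Filter

namespace Vale.Agent.P267.H205

set_option linter.unusedSectionVars false

universe u

variable {R : Type u} [TopologicalSpace R] [ChartedSpace ℂ R]

/-- `h` is holomorphic off `p` and has a simple pole at `p`. -/
def OnePole (h : R → ℂ) (p : R) : Prop := (∀ x, x ≠ p → HolAt h x) ∧ PoleAt h p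

section

variable [IsManifold 𝓘(ℂ) 1 R] [T2Space R]

theorem OnePole.merAt {h : R → ℂ} {p : R} (hp : OnePole h p) (x : R) : MerAt h x := by
  by_cases hx : x = p
  · rw [hx]; exact hp.2.merAt
  · exact (hp.1 x hx).merAt

/-- A function with exactly one simple pole is nowhere locally constant. -/
theorem OnePole.not_eventually [PreconnectedSpace R] {h : R → ℂ} {p : R} (hp : OnePole h p)
    (x : R) (a : ℂ) : ¬ ∀ᶠ y in 𝓝[≠] x, h y = a := by
  intro hx
  have h1 : ∀ x, MerAt (fun y => h y - a) x := fun x => (hp.merAt x).sub (merAt_const a x)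
  have h2 : ∀ᶠ y in 𝓝[≠] x, h y - a = 0 := hx.mono fun y hy => by rw [hy]; ring
  have h3 := eventually_zero_everywhere h1 h2 p
  obtain ⟨y, hy1, hy2⟩ := (h3.and (hp.2.eventually_ne a)).exists
  exact hy2 (sub_eq_zero.1 hy1)

/-- The relation between two one-pole functions. -/
theorem OnePole.relation [CompactSpace R] [PreconnectedSpace R] {h k : R → ℂ} {p q : R}
    (hp : OnePole h p) (kq : OnePole k q) (hpq : q ≠ p) :
    ∃ b : ℂ, ∀ x, x ≠ p → x ≠ q → (h x - h q) * k x = k p * h x + b := by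
  have : Nonempty R := ⟨p⟩
  have hweak : ∀ x, ∃ g : R → ℂ, HolAt g x ∧
      ∀ᶠ y in 𝓝[≠] x, (h y - h q) * k y - k p * h y = g y := by
    intro x
    by_cases hxp : x = p
    · subst hxp
      obtain ⟨c, hc, g, hg, hh⟩ := hp.2
      obtain ⟨m, hm, hkm⟩ := (kq.1 x hpq.symm).exists_factor
      refine ⟨fun y => c * m y + (chartAt ℂ x y - chartAt ℂ x x) * (g y * m y) - h q * k y, ?_, ?_⟩
      · exact (((holAt_const c x).mul hm).add ((holAt_coord x).mul (hg.mul hm))).sub
          ((holAt_const _ x).mul (kq.1 x hpq.symm))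
      · filter_upwards [hh, nhdsWithin_le_nhds hkm, chart_ne (x := x)] with y h1 h2 h3
        have e1 : (h y - h q) * k y - k x * h y = h y * (k y - k x) - h q * k y := by ring
        rw [e1, h1]
        have e2 : k y - k x = (chartAt ℂ x y - chartAt ℂ x x) * m y := by rw [h2]; ring
        rw [e2]
        field_simp
    · by_cases hxq : x = q
      · subst hxq
        obtain ⟨c, hc, g, hg, hh⟩ := kq.2
        obtain ⟨m, hm, hkm⟩ := (hp.1 x hxp).exists_factor
        refine ⟨fun y => c * m y + (chartAt ℂ x y - chartAt ℂ x x) * (m y * g y) - k p * h y,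
          ?_, ?_⟩
        · exact (((holAt_const c x).mul hm).add ((holAt_coord x).mul (hm.mul hg))).sub
            ((holAt_const _ x).mul (hp.1 x hxp))
        · filter_upwards [hh, nhdsWithin_le_nhds hkm, chart_ne (x := x)] with y h1 h2 h3
          have e2 : h y - h x = (chartAt ℂ x y - chartAt ℂ x x) * m y := by rw [h2]; ring
          rw [e2, h1]
          field_simp
      · exact ⟨_, (((hp.1 x hxp).sub (holAt_const _ x)).mul (kq.1 x hxq)).sub
          ((holAt_const _ x).mul (hp.1 x hxp)), Eventually.of_forall fun y => rfl⟩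
  obtain ⟨b, hb⟩ := const_of_weak hweak
  refine ⟨b, fun x hxp hxq => ?_⟩
  have hcont : ContinuousAt (fun y => (h y - h q) * k y - k p * h y) x :=
    ((((hp.1 x hxp).sub (holAt_const _ x)).mul (kq.1 x hxq)).sub
          ((holAt_const _ x).mul (hp.1 x hxp))).continuousAt
  have := hb x hcont
  have h2 : (h x - h q) * k x - k p * h x = b := this
  rw [← h2]; ring

theorem OnePole.inj_generic [CompactSpace R] [PreconnectedSpace R] {h k : R → ℂ} {p q : R}
    (hp : OnePole h p) (kq : OnePole k q) (hpq : q ≠ p) {x : R} (hxp : x ≠ p) (hxq : x ≠ q) :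
    h x ≠ h q := by
  intro hx
  obtain ⟨b, hb⟩ := hp.relation kq hpq
  have h1 := hb x hxp hxq
  rw [hx, sub_self, zero_mul] at h1
  have h2 : ∀ y, y ≠ p → y ≠ q → (h y - h q) * (k y - k p) = 0 := by
    intro y hyp hyq
    have := hb y hyp hyq
    linear_combination this - h1
  have e1 : ∀ᶠ y in 𝓝[≠] q, y ≠ p := nhdsWithin_le_nhds (isOpen_ne.mem_nhds hpq)
  have e2 : ∀ᶠ y in 𝓝[≠] q, h y = h q := by
    filter_upwards [e1, self_mem_nhdsWithin, kq.2.eventually_ne (k p)] with y h3 h4 h5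
    have := h2 y h3 h4
    rcases mul_eq_zero.1 this with h6 | h6
    · exact sub_eq_zero.1 h6
    · exact absurd (sub_eq_zero.1 h6) h5
  exact hp.not_eventually q (h q) e2

/-- injectivity off the pole. -/
theorem OnePole.injOn [CompactSpace R] [PreconnectedSpace R] {S : Set R} (hS : S.Finite)
    (H : ∀ p, p ∉ S → ∃ h : R → ℂ, OnePole h p) {h : R → ℂ} {p : R}
    (hp : OnePole h p) {x y : R} (hx : x ≠ p) (hy : y ≠ p) (hxy : h x = h y) : x = y := by
  by_contra hne
  -- disjoint neighbourhoods not containing p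
  obtain ⟨U, V, hU, hV, hxU, hyV, hUV⟩ := t2_separation hne
  have hU' : ∀ᶠ w in 𝓝 x, w ∈ U ∧ w ≠ p := by
    filter_upwards [hU.mem_nhds hxU, isOpen_ne.mem_nhds hx] with w h1 h2
    exact ⟨h1, h2⟩
  have hV' : ∀ᶠ w in 𝓝 y, w ∈ V ∧ w ≠ p := by
    filter_upwards [hV.mem_nhds hyV, isOpen_ne.mem_nhds hy] with w h1 h2
    exact ⟨h1, h2⟩
  have hm1 := (hp.1 x hx).nhds_le_map (hp.not_eventually x (h x))
  have hm2 := (hp.1 y hy).nhds_le_map (hp.not_eventually y (h y))
  have h1 : ∀ᶠ z in 𝓝 (h x), ∃ w, (w ∈ U ∧ w ≠ p) ∧ h w = z := by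
    have : h '' {w | w ∈ U ∧ w ≠ p} ∈ map h (𝓝 x) := image_mem_map hU'
    exact (hm1 this)
  have h2 : ∀ᶠ z in 𝓝 (h x), ∃ w, (w ∈ V ∧ w ≠ p) ∧ h w = z := by
    rw [hxy]
    have : h '' {w | w ∈ V ∧ w ≠ p} ∈ map h (𝓝 y) := image_mem_map hV'
    exact (hm2 this)
  have h3 : ∀ᶠ z in 𝓝[≠] (h x), z ∉ h '' S := by
    have hfin : (h '' S \ {h x}).Finite := (hS.image h).subset sdiff_subset
    have : (h '' S \ {h x})ᶜ ∈ 𝓝 (h x) := hfin.isClosed.isOpen_compl.mem_nhds (by simp)
    filter_upwards [nhdsWithin_le_nhds this, self_mem_nhdsWithin] with z hz1 hz2 hz3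
    exact hz1 ⟨hz3, hz2⟩
  have h1' : ∀ᶠ z in 𝓝[≠] (h x), ∃ w, (w ∈ U ∧ w ≠ p) ∧ h w = z := nhdsWithin_le_nhds h1
  have h2' : ∀ᶠ z in 𝓝[≠] (h x), ∃ w, (w ∈ V ∧ w ≠ p) ∧ h w = z := nhdsWithin_le_nhds h2
  obtain ⟨z, ⟨⟨w1, ⟨hw1U, hw1p⟩, hw1⟩, ⟨w2, ⟨hw2V, hw2p⟩, hw2⟩⟩, hz⟩ :=
    ((h1'.and h2').and h3).exists
  have hw1S : w1 ∉ S := fun hw => hz ⟨w1, hw, hw1⟩
  have hw12 : w2 ≠ w1 := by
    intro heq
    rw [heq] at hw2V
    exact (Set.disjoint_left.1 hUV) hw1U hw2V
  obtain ⟨k, hk⟩ := H w1 hw1S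
  exact hp.inj_generic hk hw1p hw2p hw12 (by rw [hw1, hw2])

/-- surjectivity. -/
theorem OnePole.surj [CompactSpace R] [PreconnectedSpace R] {h : R → ℂ} {p : R}
    (hp : OnePole h p) (a : ℂ) : ∃ x, x ≠ p ∧ h x = a := by
  by_contra hcon
  push Not at hcon
  have : Nonempty R := ⟨p⟩
  have hweak : ∀ x, ∃ g : R → ℂ, HolAt g x ∧ ∀ᶠ y in 𝓝[≠] x, (h y - a)⁻¹ = g y := by
    intro x
    by_cases hxp : x = p
    · subst hxp
      obtain ⟨k, hk, hk0, hh⟩ := hp.2.recip
      have h1 : HolAt (fun y => 1 - a * k y) x := (holAt_const 1 x).sub ((holAt_const a x).mul hk)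
      have h10 : (1 : ℂ) - a * k x ≠ 0 := by simp [hk0]
      refine ⟨fun y => k y * (1 - a * k y)⁻¹, hk.mul (h1.inv h10), ?_⟩
      filter_upwards [hh, nhdsWithin_le_nhds (h1.continuousAt.eventually_ne h10)]
        with y hy1 hy2
      rw [hy1.2]
      have := hy1.1
      have e : (k y)⁻¹ - a = (1 - a * k y) * (k y)⁻¹ := by field_simp
      rw [e, mul_inv, inv_inv]; ring
    · exact ⟨_, ((hp.1 x hxp).sub (holAt_const a x)).inv (sub_ne_zero.2 (hcon x hxp)),
        Eventually.of_forall fun y => rfl⟩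
  obtain ⟨F, hF, hfF⟩ := exists_holomorphic_of_weak hweak
  have h1 : ∀ x, ∀ᶠ y in 𝓝[≠] x, (h y - a)⁻¹ = F p := fun x => by
    filter_upwards [hfF x] with y hy
    rw [hy]; exact const_of_holAt hF y p
  -- near p, h is eventually constant
  apply hp.not_eventually p (a + (F p)⁻¹)
  filter_upwards [h1 p] with y hy
  rw [← hy, inv_inv]; ring

open Classical in
/-- the extended map to the sphere. -/
noncomputable def toSph (h : R → ℂ) (p : R) (x : R) : OnePoint ℂ :=
  if x = p then OnePoint.infty else ((h x : ℂ) : OnePoint ℂ)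

theorem toSph_self (h : R → ℂ) (p : R) : toSph h p p = OnePoint.infty := by simp [toSph]

theorem toSph_of_ne (h : R → ℂ) {p x : R} (hx : x ≠ p) : toSph h p x = ((h x : ℂ) : OnePoint ℂ) := by
  simp [toSph, hx]

theorem OnePole.continuous_toSph {h : R → ℂ} {p : R} (hp : OnePole h p) :
    Continuous (toSph h p) := by
  rw [continuous_iff_continuousAt]
  intro x
  by_cases hx : x = p
  · subst hx
    rw [continuousAt_iff_punctured_nhds, toSph_self]
    have h1 : Tendsto (fun y => ((h y : ℂ) : OnePoint ℂ)) (𝓝[≠] x) (𝓝 OnePoint.infty) := by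
      have h2 : Tendsto h (𝓝[≠] x) (coclosedCompact ℂ) := by
        rw [coclosedCompact_eq_cocompact, ← Metric.cobounded_eq_cocompact]
        exact hp.2.tendsto
      exact OnePoint.tendsto_coe_infty.comp h2
    refine h1.congr' ?_
    filter_upwards [self_mem_nhdsWithin] with y hy
    rw [toSph_of_ne h hy]
  · have h1 : ContinuousAt (fun y => ((h y : ℂ) : OnePoint ℂ)) x :=
      OnePoint.continuous_coe.continuousAt.comp (hp.1 x hx).continuousAt
    refine h1.congr ?_
    filter_upwards [isOpen_ne.mem_nhds hx] with y hy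
    rw [toSph_of_ne h hy]

open Classical in
/-- the point `1/z` of the sphere. -/
noncomputable def invPt (z : ℂ) : OnePoint ℂ :=
  if z = 0 then OnePoint.infty else ((z⁻¹ : ℂ) : OnePoint ℂ)

theorem invPt_zero : invPt 0 = OnePoint.infty := by simp [invPt]

theorem invPt_of_ne {z : ℂ} (hz : z ≠ 0) : invPt z = ((z⁻¹ : ℂ) : OnePoint ℂ) := by
  simp [invPt, hz]

theorem continuous_invPt : Continuous invPt := by
  rw [continuous_iff_continuousAt]
  intro z
  by_cases hz : z = 0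
  · subst hz
    rw [continuousAt_iff_punctured_nhds, invPt_zero]
    have h2 : Tendsto (fun z : ℂ => z⁻¹) (𝓝[≠] 0) (coclosedCompact ℂ) := by
      rw [coclosedCompact_eq_cocompact, ← Metric.cobounded_eq_cocompact]
      exact tendsto_inv₀_nhdsNE_zero
    refine (OnePoint.tendsto_coe_infty.comp h2).congr' ?_
    filter_upwards [self_mem_nhdsWithin] with y hy
    rw [invPt_of_ne hy]; rfl
  · have h1 : ContinuousAt (fun y : ℂ => ((y⁻¹ : ℂ) : OnePoint ℂ)) z :=
      OnePoint.continuous_coe.continuousAt.comp (continuousAt_inv₀ hz)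
    refine h1.congr ?_
    filter_upwards [isOpen_ne.mem_nhds hz] with y hy
    rw [invPt_of_ne hy]

/-- **A compact connected Riemann surface on which, for all points `p` off a finite set, there is a
function with exactly one simple pole at `p`, is the Riemann sphere.** -/
theorem exists_sphere [CompactSpace R] [ConnectedSpace R] {S : Set R} (hS : S.Finite)
    (H : ∀ p, p ∉ S → ∃ h : R → ℂ, OnePole h p) :
    ∃ Φ : OnePoint ℂ ≃ₜ R,
      MDifferentiable 𝓘(ℂ) 𝓘(ℂ) (fun z : ℂ => Φ ((z : ℂ) : OnePoint ℂ)) ∧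
      MDifferentiable 𝓘(ℂ) 𝓘(ℂ) (fun z : ℂ => Φ (invPt z)) := by
  obtain ⟨x₀⟩ : Nonempty R := inferInstance
  obtain ⟨p, hpS⟩ : ∃ p, p ∉ S := by
    have hfin : (S \ {x₀}).Finite := hS.subset sdiff_subset
    have : (S \ {x₀})ᶜ ∈ 𝓝 x₀ := hfin.isClosed.isOpen_compl.mem_nhds (by simp)
    have this' : ∀ᶠ z in 𝓝[≠] x₀, z ∈ (S \ {x₀})ᶜ := nhdsWithin_le_nhds this
    obtain ⟨z, hz1, hz2⟩ := (this'.and self_mem_nhdsWithin).exists
    exact ⟨z, fun hz => hz1 ⟨hz, hz2⟩⟩
  obtain ⟨h, hp⟩ := H p hpS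
  have hinj : Function.Injective (toSph h p) := by
    intro x y hxy
    by_cases hx : x = p
    · by_cases hy : y = p
      · rw [hx, hy]
      · rw [hx, toSph_self, toSph_of_ne h hy] at hxy
        exact absurd hxy (OnePoint.infty_ne_coe _)
    · by_cases hy : y = p
      · rw [hy, toSph_self, toSph_of_ne h hx] at hxy
        exact absurd hxy (OnePoint.coe_ne_infty _)
      · rw [toSph_of_ne h hx, toSph_of_ne h hy] at hxy
        exact hp.injOn hS H hx hy (OnePoint.coe_injective hxy)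
  have hsurj : Function.Surjective (toSph h p) := by
    intro a
    induction a using OnePoint.rec with
    | infty => exact ⟨p, toSph_self h p⟩
    | coe a =>
      obtain ⟨x, hx, hxa⟩ := hp.surj a
      exact ⟨x, by rw [toSph_of_ne h hx, hxa]⟩
  let E : R ≃ OnePoint ℂ := Equiv.ofBijective _ ⟨hinj, hsurj⟩
  let Ψ : R ≃ₜ OnePoint ℂ :=
    Continuous.homeoOfEquivCompactToT2 (f := E) (by exact hp.continuous_toSph)
  have hΨ : ∀ x, Ψ x = toSph h p x := fun x => rfl
  have hΨs : ∀ z : ℂ, Ψ.symm ((z : ℂ) : OnePoint ℂ) ≠ p ∧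
      h (Ψ.symm ((z : ℂ) : OnePoint ℂ)) = z := by
    intro z
    have h1 : Ψ (Ψ.symm ((z : ℂ) : OnePoint ℂ)) = ((z : ℂ) : OnePoint ℂ) := Ψ.apply_symm_apply _
    rw [hΨ] at h1
    by_cases hx : Ψ.symm ((z : ℂ) : OnePoint ℂ) = p
    · rw [hx, toSph_self] at h1
      exact absurd h1 (OnePoint.infty_ne_coe _)
    · rw [toSph_of_ne h hx] at h1
      exact ⟨hx, OnePoint.coe_injective h1⟩
  have hΨinf : Ψ.symm OnePoint.infty = p := by
    rw [Homeomorph.symm_apply_eq, hΨ, toSph_self]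
  have hc1 : Continuous fun z : ℂ => Ψ.symm ((z : ℂ) : OnePoint ℂ) :=
    Ψ.symm.continuous.comp OnePoint.continuous_coe
  have hM1 : MDifferentiable 𝓘(ℂ) 𝓘(ℂ) (fun z : ℂ => Ψ.symm ((z : ℂ) : OnePoint ℂ)) := by
    intro z
    refine mdifferentiableAt_of_right_inverse (k := h)
      (Eventually.of_forall fun w => hc1.continuousAt) (hp.1 _ (hΨs z).1)
      (Eventually.of_forall fun w => (hΨs w).2)
  refine ⟨Ψ.symm, hM1, ?_⟩
  intro z
  have hc2 : Continuous fun z : ℂ => Ψ.symm (invPt z) := Ψ.symm.continuous.comp continuous_invPt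
  by_cases hz : z = 0
  · subst hz
    obtain ⟨k, hk, hk0, hh⟩ := hp.2.recip
    have hF0 : Ψ.symm (invPt 0) = p := by rw [invPt_zero, hΨinf]
    refine mdifferentiableAt_of_right_inverse (k := k)
      (Eventually.of_forall fun w => hc2.continuousAt) (by rw [hF0]; exact hk) ?_
    have h1 : ∀ᶠ x in 𝓝 p, x ≠ p → k x ≠ 0 ∧ h x = (k x)⁻¹ := eventually_nhdsWithin_iff.1 hh
    have h2 : Tendsto (fun z : ℂ => Ψ.symm (invPt z)) (𝓝 0) (𝓝 p) := by
      have := hc2.continuousAt (x := (0 : ℂ))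
      have h5 : Tendsto (fun z : ℂ => Ψ.symm (invPt z)) (𝓝 0) (𝓝 (Ψ.symm (invPt 0))) := this
      rwa [hF0] at h5
    filter_upwards [h2.eventually h1] with w hw
    by_cases hw0 : w = 0
    · rw [hw0, hF0, hk0]
    · rw [invPt_of_ne hw0] at hw ⊢
      obtain ⟨h3, h4⟩ := hw (hΨs _).1
      rw [(hΨs _).2] at h4
      exact (inv_injective h4).symm
  · have h1 : MDifferentiableAt 𝓘(ℂ) 𝓘(ℂ) (fun z : ℂ => z⁻¹) z :=
      (differentiableAt_inv hz).mdifferentiableAt
    have h2 := MDifferentiableAt.comp z (hM1 (z⁻¹)) h1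
    refine h2.congr_of_eventuallyEq ?_
    filter_upwards [isOpen_ne.mem_nhds hz] with w hw
    simp [invPt_of_ne hw]

end

end Vale.Agent.P267.H205
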